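import Vale.Agent.P085.Design

/-! The key perturbation step. -/

namespace Vale.Agent.P085

open Finset Vale.Agent.P104
open scoped InnerProductSpace ComplexConjugate
open Complex (I)

variable {A E : Type*} [CStarAlgebra A] [NormedAddCommGroup E] [InnerProductSpace ℂ E]
  {τ : A →ₗ[ℂ] ℂ} {Λ : A →ₗ[ℂ] E}

/-- Polar decompositions with unitaries exist in corners under `e`. -/
def Inv (e : A) : Prop := ∀ g c : A, IsStarProjection g → e * g = g → g * c = c → c * g = c →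
  ∃ u ∈ unitary A, Commute u g ∧ ∃ s, star u * c = star s * s

omit [InnerProductSpace ℂ E] in
theorem norm_add_sq_le (x y : E) : ‖x + y‖ ^ 2 ≤ 2 * ‖x‖ ^ 2 + 2 * ‖y‖ ^ 2 := by
  have := pow_le_pow_left₀ (norm_nonneg _) (norm_add_le x y) 2
  nlinarith [sq_nonneg (‖x‖ - ‖y‖)]

variable [PartialOrder A] [StarOrderedRing A]

theorem cost_un (h : Tr τ Λ) {T : Type*} [Fintype T] [DecidableEq T] {N : Finset T} {Y : T → A}
    {η : ℝ} {B : ℕ} (hY : ∀ p, star (Y p) = Y p ∧ ‖Y p‖ ≤ 1) (hN : N.card ≤ B) (η0 : 0 ≤ η)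
    (hB : B * η ≤ 1) (k : A) : ∑ ε : T → Bool, ‖Λ ((un (amp N Y η ε) - 1) * k)‖ ^ 2 ≤
      Fintype.card (T → Bool) * (2 * (B * η ^ 2) * ‖Λ k‖ ^ 2) := by
  have sp := fun ε => un_spec (amp_spec hY hN η0 hB ε).1 (amp_spec hY hN η0 hB ε).2
  have h1 := (sum_le_sum fun ε _ => (sp ε).2.2.2).trans_eq smul_sum.symm |>.trans
    (smul_le_smul_of_nonneg_left (amp_sq orth_univ hY hN) zero_le_two)
  rw [smul_smul] at h1
  have h2 := h.mono (conj_le_smul h1 k)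
  rw [LinearMap.map_smul_of_tower, Complex.smul_re, ← h.nsq, mul_sum, sum_mul, map_sum,
    Complex.re_sum, card_univ, smul_eq_mul] at h2
  refine le_trans (le_of_eq (sum_congr rfl fun ε _ => ?_)) (h2.trans_eq (by ring))
  rw [h.nsq, star_mul]
  simp only [mul_assoc]

theorem core0 (h : Tr τ Λ) {e : A} (hcen : ∀ x, e * x = x * e) (hs : ∀ x, τ (x * e) = τ x)
    (hI : Inv e) {d : ℕ} (hd : 0 < d) : ∃ K0 : ℕ, ∀ K ≥ K0, 0 < K → ∀ (v : Fin K → A) (g : A),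
    Frame v g e → ∀ a, star a = a → ‖a‖ ≤ 1 → e * a = a → ∀ r, ‖r‖ ≤ 2 → ∀ θ α κ l : ℝ,
    0 ≤ θ → 18 * θ ≤ 1 → 0 ≤ α → 0 ≤ κ → 0 < l →
    ∃ (Ω : Type) (_ : Fintype Ω) (_ : Nonempty Ω) (a' z : Ω → A),
      (∀ ε, star (a' ε) = a' ε ∧ e * a' ε = a' ε ∧ ∀ P : StarSubalgebra ℂ A,
        IsClosed (P : Set A) → (∀ i, v i * star (v i) ∈ P) → a' ε ∈ P → z ε ∈ P) ∧
      ∑ ε, ‖Λ (r - z ε)‖ ^ 2 ≤ Fintype.card Ω * (‖Λ r‖ ^ 2 - α * θ * κ * ‖Λ r‖ ^ 2 +
        2 * α * θ * κ ^ 3 * ((48 * ‖Λ 1‖ ^ 2 + 1) / K) + 2 * α ^ 2 * K * ‖Λ 1‖ ^ 2 +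
        (37 * θ ^ 2) ^ 2 * ‖Λ r‖ ^ 2) ∧
      ∑ ε, ‖Λ (a' ε - a)‖ ^ 2 ≤ Fintype.card Ω *
        (8 * l ^ 2 * K * ‖Λ 1‖ ^ 2 + 8 * ‖Λ 1‖ ^ 2 / K + 288 * θ ^ 2 * ‖Λ 1‖ ^ 2 / d) := by
  obtain ⟨K0, hK0⟩ := exists_design hd
  refine ⟨K0, fun K hK Kp v g0 hv a a1 a2 a3 r hr θ α κ l θ0 θ1 α0 κ0 l0 => ?_⟩
  obtain ⟨s, N, lay, d1, d2, d3⟩ := hK0 K hK
  obtain ⟨w, f, H, hw, wv, hf, fH, fl⟩ := flat2 h hcen hs hr ⟨0, Kp⟩ hv
  obtain ⟨g, hg⟩ : ∃ g, w ⟨0, Kp⟩ = g := ⟨_, rfl⟩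
  rw [hg] at hw hf
  have gp := hw.proj'
  have gg := hw.idem
  have c1 : ∀ (b : A) (x y : Fin K) (F : Fin K → A), Frame F g e →
      g * (star (F x) * b * w y) = star (F x) * b * w y ∧
      star (F x) * b * w y * g = star (F x) * b * w y := fun b x y F hF =>
    ⟨by rw [← mul_assoc, ← mul_assoc, hF.fix'], by rw [mul_assoc, hw.fix]⟩
  obtain ⟨c, hc⟩ : ∃ c : Fin K × Fin K → A, ∀ σ, c σ = star (w σ.1) * a * w σ.2 := ⟨_, fun _ => rfl⟩
  choose u hu ug sq hsq using fun σ => hI g (c σ) gp (hg ▸ hw.left _)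
    (hc σ ▸ (c1 a _ _ w hw).1) (hc σ ▸ (c1 a _ _ w hw).2)
  have k0 : ∀ σ, 0 ≤ star (u σ) * c σ := fun σ => hsq σ ▸ star_mul_self_nonneg _
  have ug' : ∀ σ, Commute (star (u σ)) g := fun σ => by simpa [hw.sa] using (ug σ).star_star
  have gk : ∀ σ, g * (star (u σ) * c σ) = star (u σ) * c σ := fun σ => by
    rw [← mul_assoc, ← (ug' σ).eq, mul_assoc, hc, (c1 a _ _ w hw).1]
  obtain ⟨ρ, hρ⟩ : ∃ ρ : Fin K × Fin K → A, ∀ t, ρ t = star (f t.1) * r * w t.2 := ⟨_, fun _ => rfl⟩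
  have pu : ∀ t n, pr (fun j => u (s t j)) n ∈ unitary A := fun t n => pr_mem fun j _ => hu _
  have pg : ∀ t n, Commute (pr (fun j => u (s t j)) n) g := fun t => pr_comm fun j => ug _
  have pg' : ∀ t n, Commute (star (pr (fun j => u (s t j)) n)) g := fun t n => by
    simpa [hw.sa] using (pg t n).star_star
  choose ξ hξ y ys y1 yg hy using fun t => h.target (x := ρ t * star (pr (fun j => u (s t j)) d))
    hw.sa (Commute.mul_left (by
      rw [Commute, SemiconjBy, hρ, (c1 r _ _ f hf).1, (c1 r _ _ f hf).2]) (pg' t d)) κ0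
  obtain ⟨Y, hY⟩ : ∃ Y : Fin K × Fin K → Fin K × Fin K → A, ∀ σ p, Y σ p =
    star (pr (fun j => u (s p j)) (lay σ + 1)) * y p * pr (fun j => u (s p j)) (lay σ + 1) :=
    ⟨_, fun _ _ => rfl⟩
  have Y1 : ∀ σ p, star (Y σ p) = Y σ p ∧ ‖Y σ p‖ ≤ 1 := fun σ p => by
    refine ⟨by rw [hY, star_mul, star_mul, star_star, ys, mul_assoc], ?_⟩
    rw [hY, CStarRing.norm_mul_mem_unitary _ (pu _ _),
      CStarRing.norm_mem_unitary_mul _ (Unitary.star_mem (pu _ _))]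
    exact y1 p
  have dp : (0 : ℝ) < d := by exact_mod_cast hd
  have Kp' : (0 : ℝ) < K := by exact_mod_cast Kp
  have η0 : 0 ≤ θ / d := by positivity
  have hB : ((18 * d : ℕ) : ℝ) * (θ / d) ≤ 1 := by
    push_cast
    rwa [mul_assoc, mul_div_cancel₀ _ dp.ne']
  obtain ⟨U, hU⟩ : ∃ U : (Fin K × Fin K → Bool) → Fin K × Fin K → A, ∀ ε σ,
    U ε σ = un (amp (N σ) (Y σ) (θ / d) ε) := ⟨_, fun _ _ => rfl⟩
  have Uu : ∀ ε σ, U ε σ ∈ unitary A := fun ε σ => hU ε σ ▸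
    (un_spec (amp_spec (Y1 σ) (d1 σ) η0 hB ε).1 (amp_spec (Y1 σ) (d1 σ) η0 hB ε).2).1
  have Ug : ∀ ε σ, Commute (U ε σ) g := fun ε σ => hU ε σ ▸ un_comm
    ((Commute.sum_left _ _ _ fun p _ => Commute.smul_left
      (hY σ p ▸ ((pg' _ _).mul_left (yg p)).mul_left (pg _ _)) _).smul_left _)
  obtain ⟨W, hW⟩ : ∃ W : (Fin K × Fin K → Bool) → Fin K × Fin K → A, ∀ ε t,
    W ε t = pr (fun j => u (s t j) * U ε (s t j)) d := ⟨_, fun _ _ => rfl⟩
  have Wu : ∀ ε t, W ε t ∈ unitary A := fun ε t => hW ε t ▸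
    pr_mem fun j _ => mul_mem (hu _) (Uu _ _)
  have Wg : ∀ ε t, Commute (W ε t) g := fun ε t => hW ε t ▸
    pr_comm (fun j => (ug _).mul_left (Ug _ _)) d
  obtain ⟨n, hn⟩ : ∃ n : (Fin K × Fin K → Bool) → Fin K → Fin K → A, ∀ ε i j, n ε i j =
    if j < i then (if (j : ℕ) = 0 then l • g else
      u (i, j) * U ε (i, j) * (star (u (i, j)) * c (i, j) + l • g)) - c (i, j) else 0 :=
    ⟨_, fun _ _ _ => rfl⟩
  obtain ⟨Δ, hΔ⟩ : ∃ Δ : (Fin K × Fin K → Bool) → A, ∀ ε,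
    Δ ε = ∑ i, ∑ j, w i * n ε i j * star (w j) := ⟨_, fun _ => rfl⟩
  have μK := h.card_mul hs hw
  rw [Fintype.card_fin] at μK
  refine ⟨Fin K × Fin K → Bool, inferInstance, inferInstance, fun ε => a + (Δ ε + star (Δ ε)),
    fun ε => ∑ x, ∑ b, f x * (sg (ε (x, b)) * (α * ξ (x, b) * -I)) • (W ε (x, b) * g) * star (w b),
    fun ε => ⟨by simp [a1, add_comm], ?_, fun P hP pP aP => ?_⟩, ?_, ?_⟩
  · have : e * Δ ε = Δ ε := by simp only [hΔ, mul_sum, ← mul_assoc, hw.left]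
    rw [mul_add, mul_add, a3, this, hcen, ← hw.proj.isSelfAdjoint.star_eq, ← star_mul, this]
  · have en : ∀ i j, j < i → star (w i) * (a + (Δ ε + star (Δ ε))) * w j =
        g * (if (j : ℕ) = 0 then l • g else
          u (i, j) * U ε (i, j) * (star (u (i, j)) * c (i, j) + l • g)) * g := fun i j hij => by
      have e1 : star (w i) * star (Δ ε) * w j = 0 := by
        rw [← star_eq_zero, star_mul, star_mul, star_star, star_star, ← mul_assoc, hΔ,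
          hw.entry hw, hn, if_neg hij.asymm, mul_zero, zero_mul]
      rw [mul_add, mul_add, add_mul, add_mul, e1, hΔ, hw.entry hw, hn, if_pos hij, mul_sub, sub_mul,
        hc, (c1 a _ _ w hw).1, (c1 a _ _ w hw).2]
      abel
    have gP : g ∈ P := by
      have := pP ⟨0, Kp⟩
      rwa [← wv, hg, hw.sa, gg] at this
    have wP : ∀ i, w i ∈ P := fun i => by
      rcases Nat.eq_zero_or_pos i with i0 | i0
      · rwa [show i = ⟨0, Kp⟩ from Fin.ext i0, hg]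
      have e1 := en i ⟨0, Kp⟩ i0
      have e2 := P.smul_mem (mul_mem (mul_mem (wv i ▸ pP i) aP) gP) (l⁻¹ : ℝ)
      rw [if_pos rfl, hg] at e1
      rwa [mul_assoc (w i), mul_assoc (w i), e1, mul_smul_comm, smul_mul_assoc, gg, gg,
        mul_smul_comm, hw.fix, Complex.coe_smul, inv_smul_smul₀ l0.ne'] at e2
    have uP : ∀ i j : Fin K, j < i → 0 < (j : ℕ) → u (i, j) * U ε (i, j) * g ∈ P := fun i j hij j0 => by
      refine polar_mem hP l0 (by rw [(mul_mem (hu _) (Uu _ _)).1, one_mul]) gp gP (k0 (i, j)) (gk _) ?_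
      have e1 := mul_mem (mul_mem (star_mem (wP i)) aP) (wP j)
      rwa [en i j hij, if_neg j0.ne', ← mul_assoc g, ← ((ug _).mul_left (Ug _ _)).eq,
        mul_assoc _ g, mul_assoc _ _ g, mul_add g, gk, mul_smul_comm, gg, add_mul, mul_assoc _ _ g,
        smul_mul_assoc, gg, hc, (c1 a _ _ w hw).2, ← hc (i, j)] at e1
    refine sum_mem fun x _ => sum_mem fun b _ => mul_mem (mul_mem ?_ (P.smul_mem ?_ _))
      (star_mem (wP b))
    · exact fH x ▸ sum_mem fun i _ => P.smul_mem (wP i) _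
    · rw [hW, ← pr_mul gg fun j => (ug _).mul_left (Ug _ _)]
      exact mul_mem (pr_mem fun j hj => uP _ _ (d2 _ j hj).2.2.2 (d2 _ j hj).2.2.1) gP
  · have e1 : ∀ ε : Fin K × Fin K → Bool, ‖Λ (r - ∑ x, ∑ b, f x * (sg (ε (x, b)) *
        (α * ξ (x, b) * -I)) • (W ε (x, b) * g) * star (w b))‖ ^ 2 =
        ∑ t, ‖Λ (ρ t - (sg (ε t) * (α * ξ t * -I)) • (W ε t * g))‖ ^ 2 := fun ε => by
      rw [← h.parseval hs hf hw, Fintype.sum_prod_type]
      refine sum_congr rfl fun x _ => sum_congr rfl fun b _ => ?_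
      rw [mul_sub, sub_mul, hf.entry hw, hρ, mul_smul_comm, smul_mul_assoc, ← mul_assoc g,
        ← (Wg _ _).eq, mul_assoc _ g, gg, mul_assoc _ g, gg]
    have e2 : ∀ t, ∑ ε : Fin K × Fin K → Bool,
        ‖Λ (ρ t - (sg (ε t) * (α * ξ t * -I)) • (W ε t * g))‖ ^ 2 ≤
        Fintype.card (Fin K × Fin K → Bool) * ((1 - α * θ * κ + (37 * θ ^ 2) ^ 2) * ‖Λ (ρ t)‖ ^ 2 +
          2 * α * θ * κ ^ 3 * ‖Λ (ρ t * star (ρ t))‖ ^ 2 + 2 * α ^ 2 * ‖Λ g‖ ^ 2) := fun t => by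
      have st := steer (N := fun j => N (s t j)) (Y := fun j => Y (s t j))
        (w := fun j => u (s t j)) (d := d) (t := t) (y := y t) (fun j => Y1 _) (fun j => d1 _) η0 hB
        (by rw [mul_div_cancel₀ _ dp.ne']; linarith) (fun j => hu _) (fun j hj => (d2 t j hj).1)
        (d3 t) (y1 t) (fun j hj => by rw [hY, (d2 t j hj).2.1])
      have e3 : d * (d * (θ / d) ^ 2 + 2 * (((18 * d : ℕ) : ℝ) * (θ / d) ^ 2)) = 37 * θ ^ 2 := by
        push_cast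
        field_simp
        ring
      simp only [← hU, ← hW] at st
      rw [e3, mul_div_cancel₀ _ dp.ne'] at st
      refine (per_target h (fun ε => Wu ε t) (fun ε => abs_sg _) hw.sa
        (hρ t ▸ (c1 r _ _ f hf).2) (hξ t) α0 st).trans (mul_le_mul_of_nonneg_left ?_ (by positivity))
      have e4 := mul_le_mul_of_nonneg_left (hy t) (show 0 ≤ 2 * α * θ by positivity)
      rw [h.norm_ur (Unitary.star_mem (pu t d)), star_mul, star_star, mul_assoc (ρ t),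
        ← mul_assoc (star _), (pu t d).1, one_mul] at e4
      linarith
    simp only [e1]
    rw [sum_comm]
    refine (sum_le_sum fun t _ => e2 t).trans ?_
    rw [← mul_sum]
    refine mul_le_mul_of_nonneg_left ?_ (by positivity)
    have e5 := h.parseval hs hf hw r
    have e6 := mul_le_mul_of_nonneg_left fl (show 0 ≤ 2 * α * θ * κ ^ 3 by positivity)
    simp only [sum_add_distrib, ← mul_sum, sum_const, card_univ, Fintype.card_prod,
      Fintype.card_fin, nsmul_eq_mul, Nat.cast_mul] at e6 ⊢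
    simp only [Fintype.sum_prod_type, hρ]
    rw [e5, ← μK] at *
    nlinarith
  · have e1 : ∀ ε, ‖Λ (a + (Δ ε + star (Δ ε)) - a)‖ ^ 2 ≤ 4 * ∑ t : Fin K × Fin K,
        (2 * l ^ 2 * ‖Λ g‖ ^ 2 + 2 * (if (t.2 : ℕ) = 0 then ‖Λ (c t)‖ ^ 2 else 0) +
          2 * ‖Λ ((U ε t - 1) * (star (u t) * c t))‖ ^ 2) := fun ε => by
      rw [add_sub_cancel_left, map_add]
      refine (norm_add_sq_le _ _).trans ?_
      rw [h.norm_star, ← add_mul, ← h.parseval hs hw hw, ← Fintype.sum_prod_type']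
      refine mul_le_mul (by norm_num) (sum_le_sum fun t _ => ?_) (by positivity) (by norm_num)
      have e2 : ‖Λ (g * n ε t.1 t.2 * g)‖ ≤ ‖Λ (n ε t.1 t.2)‖ :=
        (h.mul_r _ _).trans ((mul_le_of_le_one_right (norm_nonneg _) gp.norm_le).trans
          ((h.mul_l _ _).trans (mul_le_of_le_one_left (norm_nonneg _) gp.norm_le)))
      have e3 : ‖Λ (l • g)‖ ^ 2 = l ^ 2 * ‖Λ g‖ ^ 2 := by
        rw [LinearMap.map_smul_of_tower, norm_smul, mul_pow, Real.norm_eq_abs, sq_abs]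
      rw [hΔ, hw.entry hw]
      refine (pow_le_pow_left₀ (norm_nonneg _) e2 2).trans ?_
      rw [hn]
      split_ifs with c2 c3 c3
      · have := norm_add_sq_le (Λ (l • g)) (-Λ (c t))
        rw [norm_neg, ← sub_eq_add_neg, ← map_sub, e3] at this
        have := sq_nonneg ‖Λ ((U ε t - 1) * (star (u t) * c t))‖
        linarith
      · have := norm_add_sq_le (Λ (u t * ((U ε t - 1) * (star (u t) * c t))))
          (Λ (u t * (U ε t * l • g)))
        rw [h.norm_ul (hu _), h.norm_ul (hu _), h.norm_ul (Uu _ _), e3, ← map_add] at this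
        refine le_trans (le_of_eq ?_) (this.trans_eq (by ring))
        congr 3
        simp only [mul_add, mul_sub, sub_mul, one_mul, mul_assoc, ← mul_assoc (u t) (star _),
          (hu t).2, Prod.mk.eta]
        abel
      · rw [map_zero, norm_zero, zero_pow two_ne_zero]
        positivity
      · rw [map_zero, norm_zero, zero_pow two_ne_zero]
        positivity
    have e4 : ∀ t, ∑ ε, ‖Λ ((U ε t - 1) * (star (u t) * c t))‖ ^ 2 ≤
        Fintype.card (Fin K × Fin K → Bool) * (36 * θ ^ 2 / d * ‖Λ (c t)‖ ^ 2) := fun t => by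
      simp only [hU]
      refine (cost_un h (Y1 t) (d1 t) η0 hB _).trans_eq ?_
      rw [h.norm_ul (Unitary.star_mem (hu t))]
      push_cast
      field_simp
      ring
    have e5 : ∑ t, ‖Λ (c t)‖ ^ 2 ≤ ‖Λ 1‖ ^ 2 := by
      simp only [Fintype.sum_prod_type, hc, h.parseval hs hw hw]
      exact pow_le_pow_left₀ (norm_nonneg _)
        ((h.le_one a).trans (mul_le_of_le_one_left (norm_nonneg _) a2)) 2
    have e6 : ∑ t : Fin K × Fin K, (if (t.2 : ℕ) = 0 then ‖Λ (c t)‖ ^ 2 else 0) ≤ ‖Λ g‖ ^ 2 := by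
      have : ∀ j : Fin K, (j : ℕ) = 0 ↔ j = ⟨0, Kp⟩ := fun j => by simp [Fin.ext_iff]
      simp only [Fintype.sum_prod_type, this, sum_ite_eq', mem_univ, if_true, hc, mul_assoc,
        h.half hs hw, hg]
      exact pow_le_pow_left₀ (norm_nonneg _)
        ((h.mul_l a g).trans (mul_le_of_le_one_left (norm_nonneg _) a2)) 2
    have e7 := sum_le_sum fun t (_ : t ∈ univ) => e4 t
    refine (sum_le_sum fun ε _ => e1 ε).trans ?_
    rw [sum_comm, ← mul_sum, ← mul_sum] at e7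
    simp only [sum_add_distrib, ← mul_sum, sum_const, card_univ, nsmul_eq_mul]
    have C0 : (0 : ℝ) ≤ Fintype.card (Fin K × Fin K → Bool) := Nat.cast_nonneg _
    generalize (Fintype.card (Fin K × Fin K → Bool) : ℝ) = C at *
    have e8 := mul_le_mul_of_nonneg_left e5 (show 0 ≤ C * (36 * θ ^ 2 / d) by positivity)
    have e9 := mul_le_mul_of_nonneg_left e6 C0
    have e10 : 8 * ‖Λ 1‖ ^ 2 / K = 8 * ‖Λ g‖ ^ 2 := by rw [← μK]; field_simp
    simp only [Fintype.card_prod, Fintype.card_fin, Nat.cast_mul]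
    rw [e10]
    have e11 : 8 * l ^ 2 * K * ‖Λ 1‖ ^ 2 = 8 * l ^ 2 * K * K * ‖Λ g‖ ^ 2 := by rw [← μK]; ring
    have e12 : 288 * θ ^ 2 * ‖Λ 1‖ ^ 2 / d = 8 * (36 * θ ^ 2 / d) * ‖Λ 1‖ ^ 2 := by ring
    rw [e11, e12]
    nlinarith

end Vale.Agent.P085
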