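import Vale.Agent.P085.Core

/-! Choice of parameters in the key perturbation step. -/

namespace Vale.Agent.P085

open Finset Vale.Agent.P104

variable {A E : Type*} [CStarAlgebra A] [NormedAddCommGroup E] [InnerProductSpace ℂ E]
  {τ : A →ₗ[ℂ] ℂ} {Λ : A →ₗ[ℂ] E}

theorem rsmul_mem {P : StarSubalgebra ℂ A} (c : ℝ) {x : A} (hx : x ∈ P) : c • x ∈ P := by
  rw [← Complex.coe_smul]
  exact P.smul_mem hx _

theorem clip_clip {p q : ℝ} (hp : 0 ≤ p) (hq : 0 < q) (s : ℝ) :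
    clip ((p * clip s + q * s) / (p + q)) = clip s := by
  have m : 0 < p + q := by positivity
  rcases clip_cases s with ⟨a, h⟩ | ⟨a, b, h⟩ | ⟨a, h⟩
  · have : (p * clip s + q * s) / (p + q) ≤ -1 := by rw [div_le_iff₀ m, h]; nlinarith
    rcases clip_cases ((p * clip s + q * s) / (p + q)) with c | c | c <;> linarith [c.1, c.2]
  · rw [h, ← add_mul, mul_div_cancel_left₀ _ m.ne', h]
  · have : 1 ≤ (p * clip s + q * s) / (p + q) := by rw [le_div_iff₀ m, h]; nlinarith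
    rcases clip_cases ((p * clip s + q * s) / (p + q)) with ⟨c, d⟩ | ⟨c, c', d⟩ | ⟨c, d⟩ <;>
      linarith

theorem params {μ ε : ℝ} (μ0 : 0 ≤ μ) (hε : 0 < ε) : ∃ k c θ γ : ℝ, 0 < k ∧ 0 < c ∧ 0 < θ ∧
    18 * θ ≤ 1 ∧ 0 < γ ∧ ∀ q K R : ℝ, 0 < q → q ^ 2 = K → ε ^ 2 ≤ R →
      R - c * θ / q * θ * (k * q) * R + 2 * (c * θ / q) * θ * (k * q) ^ 3 * ((48 * μ + 1) / K) +
      2 * (c * θ / q) ^ 2 * K * μ + (37 * θ ^ 2) ^ 2 * R ≤ R - 2 * γ := by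
  obtain ⟨k, k0, hk⟩ : ∃ k : ℝ, 0 < k ∧ 2 * k ^ 2 * (48 * μ + 1) ≤ ε ^ 2 / 4 := by
    refine ⟨ε / (4 * (48 * μ + 1)), by positivity, ?_⟩
    rw [div_pow, mul_pow]
    field_simp
    nlinarith
  obtain ⟨c, c0, hc⟩ : ∃ c : ℝ, 0 < c ∧ 2 * c * μ ≤ k * ε ^ 2 / 4 := by
    refine ⟨k * ε ^ 2 / (8 * (μ + 1)), by positivity, ?_⟩
    field_simp
    nlinarith
  obtain ⟨θ, θ0, θ1, hθ⟩ : ∃ θ : ℝ, 0 < θ ∧ 18 * θ ≤ 1 ∧ 37 ^ 2 * θ ^ 2 ≤ c * k / 4 := by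
    refine ⟨min (1 / 18) (c * k / (4 * 37 ^ 2)), by positivity, ?_, ?_⟩
    · linarith [min_le_left (1 / 18) (c * k / (4 * 37 ^ 2))]
    · have a := min_le_left (1 / 18) (c * k / (4 * 37 ^ 2))
      have b := min_le_right (1 / 18) (c * k / (4 * 37 ^ 2))
      have d : 0 < min (1 / 18) (c * k / (4 * 37 ^ 2)) := by positivity
      generalize min (1 / 18) (c * k / (4 * 37 ^ 2)) = t at *
      nlinarith
  obtain ⟨γ, hγ⟩ : ∃ γ, θ ^ 2 * c * k * ε ^ 2 / 8 = γ := ⟨_, rfl⟩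
  have γ0 : 0 < γ := hγ ▸ by positivity
  refine ⟨k, c, θ, γ, k0, c0, θ0, θ1, γ0, fun q K R q0 hq R1 => ?_⟩
  have e : R - c * θ / q * θ * (k * q) * R +
      2 * (c * θ / q) * θ * (k * q) ^ 3 * ((48 * μ + 1) / K) +
      2 * (c * θ / q) ^ 2 * K * μ + (37 * θ ^ 2) ^ 2 * R = R - θ ^ 2 * (c * k * R -
        c * k * (2 * k ^ 2 * (48 * μ + 1)) - c * (2 * c * μ) - 37 ^ 2 * θ ^ 2 * R) := by
    rw [← hq]
    field_simp
    ring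
  rw [e, ← hγ]
  have j1 := mul_le_mul_of_nonneg_left hk (mul_pos c0 k0).le
  have j2 := mul_le_mul_of_nonneg_left hc c0.le
  have j3 := mul_le_mul_of_nonneg_right hθ ((sq_nonneg ε).trans R1)
  have j4 := mul_le_mul_of_nonneg_left R1 (mul_pos c0 k0).le
  have j5 : c * k * ε ^ 2 / 4 ≤ c * k * R - c * k * (2 * k ^ 2 * (48 * μ + 1)) -
    c * (2 * c * μ) - 37 ^ 2 * θ ^ 2 * R := by linarith
  linarith [mul_le_mul_of_nonneg_left j5 (sq_nonneg θ)]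

variable [PartialOrder A] [StarOrderedRing A]

theorem to_ball (h : Tr τ Λ) {e a b : A} (a1 : star a = a) (a2 : ‖a‖ ≤ 1) (b1 : star b = b)
    (b3 : e * b = b) {δ : ℝ} (hδ : 0 < δ) : ∃ c, star c = c ∧ ‖c‖ ≤ 1 ∧ e * c = c ∧
      ‖Λ (c - a)‖ ≤ ‖Λ (b - a)‖ + δ ∧
      ∀ P : StarSubalgebra ℂ A, IsClosed (P : Set A) → c ∈ P → b ∈ P := by
  have bs : IsSelfAdjoint b := b1
  obtain ⟨κ, κ0, κ1, κ2⟩ : ∃ κ : ℝ, 0 < κ ∧ κ ≤ 1 ∧ κ * (2 * ‖Λ 1‖ + 1) ≤ δ :=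
    ⟨min 1 (δ / (2 * ‖Λ 1‖ + 1)), by positivity, min_le_left _ _,
      (le_div_iff₀ (by positivity)).1 (min_le_right _ _)⟩
  have L0 : 0 < ‖b‖ + 1 := by positivity
  have n1 : ‖(‖b‖ + 1)⁻¹ • b‖ ≤ 1 := by
    rw [norm_smul, Real.norm_of_nonneg (by positivity), inv_mul_le_iff₀ L0]
    linarith
  have p0 : 0 ≤ 1 - κ := by linarith
  refine ⟨(1 - κ) • cfc clip b + κ • (‖b‖ + 1)⁻¹ • b, ?_, ?_, ?_, ?_, fun P hP hc => ?_⟩
  · simp [b1, (cfc_predicate clip b : IsSelfAdjoint _).star_eq]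
  · refine (norm_add_le _ _).trans ?_
    rw [norm_smul, norm_smul κ, Real.norm_of_nonneg p0, Real.norm_of_nonneg κ0.le]
    have n2 : ‖cfc clip b‖ ≤ 1 := norm_clip id b
    linarith [mul_le_mul_of_nonneg_left n2 p0, mul_le_mul_of_nonneg_left n1 κ0.le]
  · simp only [mul_add, mul_smul_comm, clip_supp b1 b3, b3]
  · have e1 : (1 - κ) • cfc clip b + κ • (‖b‖ + 1)⁻¹ • b - a =
        (1 - κ) • (cfc clip b - a) + κ • ((‖b‖ + 1)⁻¹ • b - a) := by module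
    rw [e1, map_add, LinearMap.map_smul_of_tower, LinearMap.map_smul_of_tower]
    refine (norm_add_le _ _).trans ?_
    rw [norm_smul, norm_smul κ, Real.norm_of_nonneg p0, Real.norm_of_nonneg κ0.le]
    have i1 := h.clip_le b1 a1 a2
    have i2 := (h.le_one _).trans (mul_le_mul_of_nonneg_right
      ((norm_sub_le _ a).trans (add_le_add n1 a2)) (norm_nonneg _))
    nlinarith [norm_nonneg (Λ (cfc clip b - a)), mul_le_mul_of_nonneg_left i2 κ0.le]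
  · have q0 : 0 < κ * (‖b‖ + 1)⁻¹ := by positivity
    rw [smul_smul] at hc
    generalize κ * (‖b‖ + 1)⁻¹ = q at *
    have e1 : (1 - κ) • cfc clip b + q • b = cfc (fun s => (1 - κ) * clip s + q * s) b := by
      rw [cfc_add b _ _, cfc_const_mul _ _ b, cfc_const_mul _ _ b, cfc_id' ℝ b]
    have e2 := cfc_mem (𝕜' := ℂ) (fun s : ℝ => clip (s / (1 - κ + q))) hc
    rw [e1, ← cfc_comp' _ _ b] at e2
    simp only [clip_clip p0 q0] at e2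
    simpa [smul_smul, q0.ne'] using rsmul_mem q⁻¹ (sub_mem hc (rsmul_mem (1 - κ) e2))

theorem core (h : Tr τ Λ) {e : A} (hcen : ∀ x, e * x = x * e) (hs : ∀ x, τ (x * e) = τ x)
    (hI : Inv e) {ε : ℝ} (hε : 0 < ε) : ∃ γ > 0, ∀ η > 0, ∃ K0 : ℕ, ∀ K ≥ K0,
    ∀ (v : Fin K → A) (g : A), Frame v g e → ∀ a, star a = a → ‖a‖ ≤ 1 → e * a = a →
    ∀ r, ‖r‖ ≤ 2 → ε ≤ ‖Λ r‖ → ∃ a' z, star a' = a' ∧ ‖a'‖ ≤ 1 ∧ e * a' = a' ∧
      ‖Λ (a' - a)‖ ≤ η ∧ ‖Λ (r - z)‖ ^ 2 ≤ ‖Λ r‖ ^ 2 - γ ∧ ∀ P : StarSubalgebra ℂ A,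
        IsClosed (P : Set A) → (∀ i, v i * star (v i) ∈ P) → a' ∈ P → z ∈ P := by
  obtain ⟨μ, hμ⟩ : ∃ μ, ‖Λ 1‖ ^ 2 = μ := ⟨_, rfl⟩
  have μ0 : 0 ≤ μ := hμ ▸ sq_nonneg _
  obtain ⟨k, c, θ, γ, k0, c0, θ0, θ1, γ0, i0⟩ := params μ0 hε
  refine ⟨γ, γ0, fun η η0 => ?_⟩
  obtain ⟨L, L0, hL⟩ : ∃ L : ℝ, 0 < L ∧ L * (η / 2) ^ 2 = 4 * μ + 1 :=
    ⟨(4 * μ + 1) / (η / 2) ^ 2, by positivity, by field_simp⟩
  obtain ⟨δ, δ0, hδ⟩ : ∃ δ : ℝ, 0 < δ ∧ L * (3 * δ) = γ := ⟨γ / (3 * L), by positivity, by field_simp⟩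
  obtain ⟨d, hd⟩ := exists_nat_gt (288 * μ / δ)
  have dp : (0 : ℝ) < d := lt_of_le_of_lt (by positivity) hd
  obtain ⟨K0, hK0⟩ := core0 h hcen hs hI (d := d) (by exact_mod_cast dp)
  obtain ⟨K1, hK1⟩ := exists_nat_gt (8 * μ / δ)
  refine ⟨max K0 K1, fun K hK v g hv a a1 a2 a3 r r1 r2 => ?_⟩
  have K1' : 8 * μ / δ < K := hK1.trans_le (by exact_mod_cast le_of_max_le_right hK)
  have Kp : (0 : ℝ) < K := lt_of_le_of_lt (by positivity) K1'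
  obtain ⟨q, q0, hq⟩ : ∃ q : ℝ, 0 < q ∧ q ^ 2 = K := ⟨√K, by positivity, Real.sq_sqrt Kp.le⟩
  obtain ⟨l, l0, hl⟩ : ∃ l : ℝ, 0 < l ∧ 8 * l ^ 2 * K * μ ≤ δ := by
    refine ⟨√(δ / (8 * K * μ + 1)), by positivity, ?_⟩
    rw [Real.sq_sqrt (by positivity)]
    field_simp
    nlinarith
  obtain ⟨Ω, _, _, a', z, h1, h2, h3⟩ := hK0 K (le_of_max_le_left hK) (by exact_mod_cast Kp) v g hv
    a a1 a2 a3 r r1 θ (c * θ / q) (k * q) l θ0.le θ1 (by positivity) (by positivity) l0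
  rw [hμ] at h2 h3
  have R1 : ε ^ 2 ≤ ‖Λ r‖ ^ 2 := by gcongr
  have R2 : ‖Λ r‖ ^ 2 ≤ 4 * μ := by
    have := pow_le_pow_left₀ (norm_nonneg _) ((h.le_one r).trans
      (mul_le_mul_of_nonneg_right r1 (norm_nonneg _))) 2
    rw [mul_pow, hμ] at this
    linarith
  generalize ‖Λ r‖ ^ 2 = R at *
  have i1 := i0 q K R q0 hq R1
  have i2 : 8 * l ^ 2 * K * μ + 8 * μ / K + 288 * θ ^ 2 * μ / d ≤ 3 * δ := by
    have j1 : 8 * μ / K ≤ δ := by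
      rw [div_le_iff₀' Kp]
      exact ((div_lt_iff₀ δ0).1 K1').le
    have j2 : 288 * θ ^ 2 * μ / d ≤ δ := by
      rw [div_le_iff₀' dp]
      have := (div_lt_iff₀ δ0).1 hd
      have : θ ^ 2 * μ ≤ μ := mul_le_of_le_one_left μ0
        ((sq_le_one_iff₀ θ0.le).2 (by linarith))
      linarith
    linarith
  obtain ⟨o, -, ho⟩ := exists_le_of_sum_le (s := univ) univ_nonempty
    (f := fun o => ‖Λ (r - z o)‖ ^ 2 + L * ‖Λ (a' o - a)‖ ^ 2) (g := fun _ => R - γ) (by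
      rw [sum_add_distrib, ← mul_sum, sum_const, card_univ, nsmul_eq_mul]
      have C0 : (0 : ℝ) ≤ Fintype.card Ω := Nat.cast_nonneg _
      have j1 := h2.trans (mul_le_mul_of_nonneg_left i1 C0)
      have j2 := mul_le_mul_of_nonneg_left (h3.trans (mul_le_mul_of_nonneg_left i2 C0)) L0.le
      rw [mul_left_comm, hδ] at j2
      linarith)
  obtain ⟨b, b1, b2, b3, b4, b5⟩ := to_ball h a1 a2 (h1 o).1 (h1 o).2.1 (half_pos η0)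
  have j : ‖Λ (a' o - a)‖ ≤ η / 2 := by
    refine (pow_le_pow_iff_left₀ (norm_nonneg _) (by positivity) two_ne_zero).1
      (le_of_mul_le_mul_left ?_ L0)
    linarith [sq_nonneg ‖Λ (r - z o)‖]
  refine ⟨b, z o, b1, b2, b3, by linarith, ?_, fun P hP p1 p2 => (h1 o).2.2 P hP p1 (b5 P hP p2)⟩
  linarith [mul_nonneg L0.le (sq_nonneg ‖Λ (a' o - a)‖)]

end Vale.Agent.P085
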