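import Vale.Agent.P104.VN1

/-! Shared definitions for the generator problem. -/

namespace Vale.Agent.P085

variable {K : Type*} [NormedAddCommGroup K] [InnerProductSpace ℂ K] [CompleteSpace K]

/-- The corner `e M e` is generated by commuting projections and one self-adjoint element. -/
def Gen (M : VonNeumannAlgebra K) (e : K →L[ℂ] K) : Prop :=
  ∃ (q : ℕ → (K →L[ℂ] K)) (h : K →L[ℂ] K),
    (∀ n, q n ∈ M ∧ IsStarProjection (q n) ∧ e * q n = q n) ∧ (∀ m n, Commute (q m) (q n)) ∧
    h ∈ M ∧ star h = h ∧ e * h = h ∧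
    ∀ N : VonNeumannAlgebra K, e ∈ N → (∀ n, q n ∈ N) → h ∈ N →
      ∀ x ∈ M, e * x * e = x → x ∈ N

end Vale.Agent.P085
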