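import Vale.Agent.P085.Defs

/-! Countable generating families and coding lemmas. -/

namespace Vale.Agent.P085

open Vale.Agent.P104 Filter Topology Finset

variable {K : Type*} [NormedAddCommGroup K] [InnerProductSpace ℂ K] [CompleteSpace K]
  {M : VonNeumannAlgebra K}

omit [CompleteSpace K] in
theorem strong_of_closure {ι : Type*} {l : Filter ι} {v : ι → K →L[ℂ] K} {w : K →L[ℂ] K} {C : ℝ}
    (hb : ∀ i, ‖v i‖ ≤ C) {S : Set K} (h : ∀ z ∈ S, Tendsto (fun i => v i z) l (𝓝 (w z))) {z : K}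
    (hz : z ∈ closure S) : Tendsto (fun i => v i z) l (𝓝 (w z)) := by
  refine Metric.tendsto_nhds.2 fun ε hε => ?_
  obtain ⟨y, y1, y2⟩ := Metric.mem_closure_iff.1 hz (ε / 2 / (|C| + ‖w‖ + 1)) (by positivity)
  filter_upwards [Metric.tendsto_nhds.1 (h y y1) (ε / 2) (half_pos hε)] with i hi
  rw [dist_eq_norm] at *
  rw [lt_div_iff₀ (by positivity)] at y2
  have a := (v i).le_of_opNorm_le ((hb i).trans (le_abs_self C)) (z - y)
  have b := w.le_opNorm (z - y)
  have e : v i z - w z = v i (z - y) + (v i y - w y) - w (z - y) := by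
    rw [map_sub, map_sub]; abel
  rw [e]
  nlinarith [norm_sub_le (v i (z - y) + (v i y - w y)) (w (z - y)),
    norm_add_le (v i (z - y)) (v i y - w y), norm_nonneg (z - y)]

theorem exists_dense [TopologicalSpace.SeparableSpace K] {e : K →L[ℂ] K} (he : e ∈ M)
    (hep : IsStarProjection e) :
    ∃ V : ℕ → (K →L[ℂ] K), (∀ n, V n ∈ M ∧ 0 ≤ V n ∧ V n ≤ e) ∧
      ∀ N : VonNeumannAlgebra K, (∀ n, V n ∈ N) → ∀ x ∈ M, e * x * e = x → x ∈ N := by
  have : SecondCountableTopology K := UniformSpace.secondCountable_of_separable K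
  let Φ : (K →L[ℂ] K) → ℕ → K := fun T k => T (TopologicalSpace.denseSeq K k)
  obtain ⟨t, t1, t2, t3⟩ := (TopologicalSpace.IsSeparable.of_separableSpace
    (Φ '' {V | V ∈ M ∧ 0 ≤ V ∧ V ≤ e})).exists_countable_dense_subset
  obtain ⟨f, rfl⟩ := t2.exists_eq_range
    (closure_nonempty_iff.1 ⟨_, t3 ⟨0, ⟨zero_mem _, le_rfl, hep.nonneg⟩, rfl⟩⟩)
  choose V hV hf using fun n => t1 (Set.mem_range_self n)
  refine ⟨V, hV, fun N hN => corner_span he hep
    (Subalgebra.toSubmodule N.toStarSubalgebra.toSubalgebra) fun T h1 h2 h3 => ?_⟩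
  obtain ⟨x, x1, x2⟩ := mem_closure_iff_seq_limit.1 (t3 ⟨T, ⟨h1, h2, h3⟩, rfl⟩)
  choose k hk using x1
  refine mem_of_strong_limit (M := N) (l := atTop) (v := fun n => V (k n))
    (.of_forall fun n => hN _) fun z => strong_of_closure (C := 1)
    (fun n => norm_le_one_of_le_proj hep (hV _).2.1 (hV _).2.2) ?_
    (TopologicalSpace.denseRange_denseSeq K z)
  rintro _ ⟨j, rfl⟩
  have := tendsto_pi_nhds.1 x2 j
  simpa only [← hk, ← hf] using this

theorem gen_abelian [TopologicalSpace.SeparableSpace K] {e : K →L[ℂ] K} (he : e ∈ M)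
    (hep : IsStarProjection e) (ha : AbelianProj M e) : Gen M e := by
  obtain ⟨V, hV, hN⟩ := exists_dense he hep
  choose E E1 E2 E3 E4 E5 E6 using fun h : {h : K →L[ℂ] K // h ∈ M ∧ 0 ≤ h ∧ h ≤ e} =>
    bis_mem h.2.1 hep h.2.2.1 h.2.2.2
  let F : {h : K →L[ℂ] K // h ∈ M ∧ 0 ≤ h ∧ h ≤ e} → {h : K →L[ℂ] K // h ∈ M ∧ 0 ≤ h ∧ h ≤ e} :=
    fun h => ⟨(2 : ℂ) • h.1 - E h, sub_mem (vn_smul_mem _ h.2.1) (E1 h), E4 h, E5 h⟩
  have c : ∀ h, e * E h * e = E h := fun h => by
    rw [E3, proj_mul_symm hep.isSelfAdjoint.star_eq (E2 h).isSelfAdjoint.star_eq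
      (E2 h).isSelfAdjoint.star_eq (E3 h)]
  refine ⟨fun n => E (F^[n.unpair.2] ⟨V n.unpair.1, hV _⟩), 0, fun n => ⟨E1 _, E2 _, E3 _⟩,
    fun m n => ?_, zero_mem _, star_zero _, mul_zero _, fun N _ h _ => hN N fun n => ?_⟩
  · have := ha _ (E1 (F^[m.unpair.2] ⟨V m.unpair.1, hV _⟩)) _ (E1 (F^[n.unpair.2] ⟨V n.unpair.1, hV _⟩))
    rwa [c, c] at this
  · have a : ∀ k, V n - (2⁻¹ ^ k : ℂ) • (F^[k] ⟨V n, hV n⟩).1 ∈ N := fun k => by
      induction k with
      | zero => simp
      | succ k ih =>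
        have := add_mem ih (vn_smul_mem (2⁻¹ ^ (k + 1)) (h (Nat.pair n k)))
        simp only [Nat.unpair_pair] at this
        rw [Function.iterate_succ_apply']
        convert this using 1
        simp only [F, smul_sub, smul_smul, pow_succ, mul_assoc]
        norm_num
        abel
    refine (vn_isClosed N).mem_of_tendsto (b := atTop) ?_ (.of_forall a)
    conv => enter [3, 1]; rw [← sub_zero (V n)]
    refine tendsto_const_nhds.sub (squeeze_zero_norm (a := fun k => 2⁻¹ ^ k) (fun k => ?_)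
      (tendsto_pow_atTop_nhds_zero_of_lt_one (by norm_num) (by norm_num)))
    rw [norm_smul, norm_pow, norm_inv, Complex.norm_two]
    exact mul_le_of_le_one_right (by positivity) (norm_le_one_of_le_proj hep
      (F^[k] ⟨V n, hV n⟩).2.2.1 (F^[k] ⟨V n, hV n⟩).2.2.2)

theorem exists_code {ι : Type*} [Countable ι] (t : ι → K →L[ℂ] K)
    (ht : ∀ i, t i ∈ M ∧ star (t i) = t i) : ∃ h ∈ M, star h = h ∧
      (∀ f, (∀ i, f * t i = t i) → f * h = h) ∧ ∀ i, ∃ c : ℂ, c ≠ 0 ∧ ∀ p q,
        (∀ j, j ≠ i → p * t j * q = 0) → c • (p * h * q) = p * t i * q := by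
  obtain ⟨n, hn⟩ := exists_injective_nat ι
  let c : ι → ℝ := fun i => 2⁻¹ ^ n i * (‖t i‖ + 1)⁻¹
  have c0 : ∀ i, 0 < c i := fun i => by positivity
  have hs : Summable fun i => (c i : ℂ) • t i := by
    refine .of_norm_bounded ((summable_geometric_of_lt_one (r := 2⁻¹) (by norm_num)
      (by norm_num)).comp_injective hn) fun i => ?_
    rw [norm_smul, Complex.norm_real, Real.norm_of_nonneg (c0 i).le, mul_assoc]
    refine mul_le_of_le_one_right (by positivity) ?_
    rw [inv_mul_le_iff₀ (by positivity)]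
    linarith
  refine ⟨∑' i, (c i : ℂ) • t i, tsum_mem (vn_isClosed M) fun i => vn_smul_mem _ (ht i).1, ?_,
    fun f hf => ?_, fun i => ⟨(c i : ℂ)⁻¹, by simpa using (c0 i).ne', fun p q h => ?_⟩⟩
  · simp [tsum_star, (ht _).2]
  · rw [← hs.tsum_mul_left]
    simp [hf]
  · rw [← hs.tsum_mul_left, ← (hs.mul_left p).tsum_mul_right, tsum_eq_single i fun j hj => by
      rw [mul_smul_comm, smul_mul_assoc, h j hj, smul_zero], mul_smul_comm, smul_mul_assoc,
      inv_smul_smul₀ (by simpa using (c0 i).ne')]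

theorem comm_proj {S q b : K →L[ℂ] K} (hq : q * q = q) (hb : ‖b‖ ≤ 3⁻¹) (c : Commute q b)
    (h : Commute S (q + b)) : Commute S q := by
  have z : ∀ T : K →L[ℂ] K, T = T * b - b * T ∨ T = b * T - T * b → T = 0 := fun T hT => by
    have a1 := (norm_mul_le T b).trans (mul_le_mul_of_nonneg_left hb (norm_nonneg _))
    have a2 := (norm_mul_le b T).trans (mul_le_mul_of_nonneg_right hb (norm_nonneg _))
    have : ‖T‖ ≤ ‖T * b‖ + ‖b * T‖ := by
      rcases hT with hT | hT
      · exact (congrArg norm hT).trans_le (norm_sub_le _ _)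
      · exact (congrArg norm hT).trans_le ((norm_sub_le _ _).trans_eq (add_comm _ _))
    exact norm_le_zero_iff.1 (by linarith [norm_nonneg T])
  have hq' : ∀ x, q * (q * x) = q * x := fun x => by rw [← mul_assoc, hq]
  have c' : ∀ x, b * (q * x) = q * (b * x) := fun x => by rw [← mul_assoc, ← c.eq, mul_assoc]
  have h' : S * q + S * b = q * S + b * S := by simpa [mul_add, add_mul] using h.eq
  have e1 := congrArg (fun x => q * x * (1 - q)) h'
  have e2 := congrArg (fun x => (1 - q) * x * q) h'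
  have z1 := z (q * S * (1 - q)) (.inl (by
    simp only [mul_add, add_mul, mul_sub, sub_mul, mul_one, one_mul, mul_assoc, hq, hq', c',
      ← c.eq] at e1 ⊢
    linear_combination (norm := abel) -e1))
  have z2 := z ((1 - q) * S * q) (.inr (by
    simp only [mul_add, add_mul, mul_sub, sub_mul, mul_one, one_mul, mul_assoc, hq, hq', c',
      ← c.eq] at e2 ⊢
    linear_combination (norm := abel) e2))
  rw [mul_sub, mul_one, sub_eq_zero] at z1
  rw [sub_mul, sub_mul, one_mul, sub_eq_zero] at z2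
  exact z2.trans z1.symm

theorem single_of_gen (h : Gen M 1) :
    ∃ x ∈ M, ∀ N : VonNeumannAlgebra K, x ∈ N → ∀ y ∈ M, y ∈ N := by
  obtain ⟨q, h, q1, q2, h1, h2, -, h3⟩ := h
  have nb : ∀ k n, ‖((4⁻¹ ^ n : ℝ) : ℂ) • q (n + k)‖ ≤ 4⁻¹ ^ n := fun k n => by
    rw [norm_smul, Complex.norm_real, Real.norm_of_nonneg (by positivity)]
    exact mul_le_of_le_one_right (by positivity) (q1 _).2.1.norm_le
  have g := hasSum_geometric_of_lt_one (r := 4⁻¹) (by norm_num) (by norm_num)
  have hs : ∀ k, Summable fun n => ((4⁻¹ ^ n : ℝ) : ℂ) • q (n + k) := fun k =>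
    .of_norm_bounded g.summable (nb k)
  obtain ⟨a, ha⟩ : ∃ a : ℕ → K →L[ℂ] K, ∀ k, a k = ∑' n, ((4⁻¹ ^ n : ℝ) : ℂ) • q (n + k) :=
    ⟨_, fun _ => rfl⟩
  have a1 : ∀ k, a k = q k + (4⁻¹ : ℂ) • a (k + 1) := fun k => by
    rw [ha, (hs k).tsum_eq_zero_add, ha, ← (hs _).tsum_const_smul]
    simp [smul_smul, pow_succ', add_assoc, add_comm 1]
  have a2 : ∀ k, ‖(4⁻¹ : ℂ) • a k‖ ≤ 3⁻¹ := fun k => by
    have := tsum_of_norm_bounded g (nb k)
    rw [norm_smul, ha, norm_inv, Complex.norm_ofNat]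
    linarith
  have a3 : ∀ j k, Commute (q j) (a k) := fun j k =>
    ha k ▸ Commute.tsum_right _ fun n => (q2 _ _).smul_right _
  have a4 : star (a 0) = a 0 := by simp [ha, tsum_star, (q1 _).2.1.isSelfAdjoint.star_eq]
  refine ⟨a 0 + Complex.I • h, add_mem (ha 0 ▸ tsum_mem (vn_isClosed M) fun n =>
    vn_smul_mem _ (q1 _).1) (vn_smul_mem _ h1), fun N hN y hy => h3 N (one_mem _) (fun n => ?_) ?_ y
    hy (by simp)⟩
  · have m : a 0 ∈ N := by
      convert vn_smul_mem 2⁻¹ (add_mem hN (star_mem hN)) using 1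
      simp only [star_add, star_smul, a4, h2, Complex.star_def, Complex.conj_I]
      module
    refine mem_of_commute fun S hS => ?_
    have b : ∀ k, Commute S (a k) → Commute S (q k) := fun k hk =>
      comm_proj (q1 k).2.1.isIdempotentElem (a2 (k + 1)) ((a3 _ _).smul_right _) (a1 k ▸ hk)
    have c : ∀ k, Commute S (a k) := fun k => by
      induction k with
      | zero => exact (commute_of_mem m hS).symm
      | succ k ih =>
        have := (ih.sub_right (b k ih)).smul_right (4 : ℂ)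
        rwa [a1, add_sub_cancel_left, smul_inv_smul₀ (by norm_num)] at this
    exact b n (c n)
  · convert vn_smul_mem (-Complex.I / 2) (sub_mem hN (star_mem hN)) using 1
    simp only [star_add, star_smul, a4, h2, Complex.star_def, Complex.conj_I]
    match_scalars
    · linear_combination Complex.I_mul_I
    · ring

end Vale.Agent.P085
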