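import Vale.Agent.P104.Alg

/-! Random signs steer long words of unitaries. -/

namespace Vale.Agent.P085

open Finset Vale.Agent.P104
open Complex (I)

/-- The sign attached to a boolean. -/
def sg (b : Bool) : ℝ := if b then 1 else -1

theorem sg_mul_self (b : Bool) : sg b * sg b = 1 := by cases b <;> simp [sg]

theorem abs_sg (b : Bool) : |sg b| = 1 := by cases b <;> simp [sg]

theorem sg_not (b : Bool) : sg (!b) = -sg b := by cases b <;> simp [sg]

section Comb

variable {T : Type*} [DecidableEq T]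

theorem sum_mul_indep {A : Type*} [Semiring A] (W : Finset (T → Bool)) (S : Finset T)
    (hW : ∀ a ∈ W, ∀ b ∈ W, S.piecewise a b ∈ W) (F G : (T → Bool) → A)
    (hF : ∀ a ∈ W, ∀ b ∈ W, F (S.piecewise a b) = F b)
    (hG : ∀ a ∈ W, ∀ b ∈ W, G (S.piecewise a b) = G a) :
    (∑ a ∈ W, F a) * ∑ b ∈ W, G b = W.card • ∑ a ∈ W, F a * G a := by
  have inv : ∀ a b : T → Bool, S.piecewise (S.piecewise a b) (S.piecewise b a) = a := by
    intro a b
    funext i
    by_cases h : i ∈ S <;> simp [h]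
  rw [sum_mul_sum, ← sum_product', ← sum_const, ← sum_product' (f := fun _ a => F a * G a)]
  refine sum_nbij' (fun p => (S.piecewise p.1 p.2, S.piecewise p.2 p.1))
    (fun p => (S.piecewise p.1 p.2, S.piecewise p.2 p.1)) ?_ ?_ ?_ ?_ ?_
  · simp only [mem_product]
    exact fun p h => ⟨hW _ h.1 _ h.2, hW _ h.2 _ h.1⟩
  · simp only [mem_product]
    exact fun p h => ⟨hW _ h.1 _ h.2, hW _ h.2 _ h.1⟩
  · intro p _
    simp [inv]
  · intro p _
    simp [inv]
  · simp only [mem_product]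
    intro p h
    rw [hF _ h.2 _ h.1, hG _ h.2 _ h.1]

theorem sum_sg (W : Finset (T → Bool)) {p q : T} (hpq : p ≠ q)
    (hW : ∀ a ∈ W, Function.update a q (!a q) ∈ W) : ∑ a ∈ W, sg (a p) * sg (a q) = 0 := by
  refine sum_involution (fun a _ => Function.update a q (!a q)) (fun a _ => ?_) (fun a _ _ h => ?_)
    hW (fun a _ => ?_)
  · simp [Function.update_of_ne hpq, sg_not]
  · simpa using congrFun h q
  · simp

/-- The signs are orthogonal on `W`. -/
def Orth (W : Finset (T → Bool)) : Prop := ∀ p q, p ≠ q → ∑ a ∈ W, sg (a p) * sg (a q) = 0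

variable [Fintype T]

theorem orth_univ : Orth (univ : Finset (T → Bool)) := fun _ _ h => sum_sg _ h fun _ _ => mem_univ _

theorem orth_filter (t : T) (b : Bool) : Orth (univ.filter fun a : T → Bool => a t = b) := by
  have : ∀ p q, p ≠ q → q ≠ t →
      ∑ a ∈ univ.filter fun a : T → Bool => a t = b, sg (a p) * sg (a q) = 0 := fun p q h h' =>
    sum_sg _ h fun a ha => by simpa [Function.update_of_ne h'.symm] using ha
  intro p q h
  by_cases c : q = t
  · rw [sum_congr rfl fun _ _ => mul_comm _ _]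
    exact this q p h.symm (c ▸ h)
  · exact this p q h c

theorem sum_sg_univ (t : T) : ∑ a : T → Bool, sg (a t) = 0 := by
  refine sum_involution (fun a _ => Function.update a t (!a t)) (fun a _ => ?_) (fun a _ _ h => ?_)
    (fun _ _ => mem_univ _) (fun a _ => ?_)
  · simp [sg_not]
  · simpa using congrFun h t
  · simp

end Comb

/-- Ordered partial products. -/
def pr {A : Type*} [Monoid A] (x : ℕ → A) : ℕ → A
  | 0 => 1
  | n + 1 => pr x n * x n

theorem pr_congr {A : Type*} [Monoid A] {x y : ℕ → A} {n : ℕ} (h : ∀ j < n, x j = y j) :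
    pr x n = pr y n := by
  induction n with
  | zero => rfl
  | succ n ih => rw [pr, pr, ih fun j hj => h j (by omega), h n (by omega)]

theorem pr_mem {A S : Type*} [Monoid A] [SetLike S A] [SubmonoidClass S A] {P : S} {x : ℕ → A}
    {n : ℕ} (h : ∀ j < n, x j ∈ P) : pr x n ∈ P := by
  induction n with
  | zero => exact one_mem _
  | succ n ih => exact mul_mem (ih fun j hj => h j (by omega)) (h n (by omega))

theorem pr_comm {A : Type*} [Monoid A] {x : ℕ → A} {g : A} (h : ∀ j, Commute (x j) g) (n : ℕ) :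
    Commute (pr x n) g := by
  induction n with
  | zero => exact Commute.one_left _
  | succ n ih => exact ih.mul_left (h n)

theorem pr_mul {A : Type*} [Monoid A] {x : ℕ → A} {g : A} (hg : g * g = g)
    (h : ∀ j, Commute (x j) g) (n : ℕ) : pr (fun j => x j * g) n * g = pr x n * g := by
  induction n with
  | zero => rfl
  | succ n ih => rw [pr, pr, mul_assoc, mul_assoc, hg, (h n).eq, ← mul_assoc, ih, mul_assoc,
      ← (h n).eq, mul_assoc]

variable {A : Type*} [CStarAlgebra A]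

theorem norm_unit_le {u : A} (hu : u ∈ unitary A) : ‖u‖ ≤ 1 := by
  rcases subsingleton_or_nontrivial A with _ | _
  · simp [Subsingleton.elim u 0]
  · exact (CStarRing.norm_of_mem_unitary hu).le

theorem pr_det {w Φ : ℕ → A} {y : A} {x : ℂ} {η β : ℝ} {d : ℕ} (hw : ∀ j, w j ∈ unitary A)
    (hΦ : ∀ j < d, ‖Φ j‖ ≤ 1) (hy : ‖y‖ ≤ 1) (hx : ‖x‖ ≤ η) (hd : d * η ≤ 1)
    (h : ∀ j < d, ‖Φ j - 1 - x • (star (pr w (j + 1)) * y * pr w (j + 1))‖ ≤ β) (n : ℕ)
    (hn : n ≤ d) :
    ‖pr (fun j => w j * Φ j) n - pr w n - (n * x) • (y * pr w n)‖ ≤ n * (d * η ^ 2 + 2 * β) := by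
  induction n with
  | zero => simp [pr]
  | succ n ih =>
    have hp : pr w (n + 1) ∈ unitary A := pr_mem fun j _ => hw j
    have p1 := norm_unit_le hp
    have η0 : 0 ≤ η := (norm_nonneg _).trans hx
    have nd : (n : ℝ) ≤ d := by exact_mod_cast (by omega : n ≤ d)
    have nx : ‖(n : ℂ) * x‖ ≤ d * η := by
      rw [norm_mul, Complex.norm_natCast]
      gcongr
    have e : pr (fun j => w j * Φ j) (n + 1) - pr w (n + 1) -
        (((n + 1 : ℕ) : ℂ) * x) • (y * pr w (n + 1)) =
        (pr (fun j => w j * Φ j) n - pr w n - (n * x) • (y * pr w n)) * (w n * Φ n) +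
        (pr w (n + 1) + (n * x) • (y * pr w (n + 1))) *
          (Φ n - 1 - x • (star (pr w (n + 1)) * y * pr w (n + 1))) +
        (n * x * x) • (y * (y * pr w (n + 1))) := by
      have u : ∀ z, pr w (n + 1) * (star (pr w (n + 1)) * z) = z := fun z => by
        rw [← mul_assoc, hp.2, one_mul]
      have v : ∀ z, pr w n * (w n * z) = pr w (n + 1) * z := fun z => by rw [pr, mul_assoc]
      simp only [mul_sub, sub_mul, add_mul, mul_one, mul_smul_comm, smul_mul_assoc, mul_assoc, u, v]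
      rw [pr]
      push_cast
      module
    have a1 : ‖w n * Φ n‖ ≤ 1 :=
      (norm_mul_le _ _).trans (mul_le_one₀ (norm_unit_le (hw n)) (norm_nonneg _) (hΦ n (by omega)))
    have a2 : ‖y * pr w (n + 1)‖ ≤ 1 := (norm_mul_le _ _).trans (mul_le_one₀ hy (norm_nonneg _) p1)
    have a3 : ‖y * (y * pr w (n + 1))‖ ≤ 1 :=
      (norm_mul_le _ _).trans (mul_le_one₀ hy (norm_nonneg _) a2)
    have a4 : ‖pr w (n + 1) + (n * x) • (y * pr w (n + 1))‖ ≤ 2 := by
      refine (norm_add_le _ _).trans ?_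
      rw [norm_smul]
      have := mul_le_mul nx a2 (norm_nonneg _) (by positivity)
      linarith
    have a5 : ‖(n * x * x) • (y * (y * pr w (n + 1)))‖ ≤ d * η ^ 2 := by
      rw [norm_smul, norm_mul]
      calc _ ≤ d * η * η * 1 := by gcongr
        _ = _ := by ring
    have b := h n (by omega)
    have i := ih (by omega)
    rw [e]
    refine (norm_add₃_le).trans ?_
    have c1 := (norm_mul_le _ _).trans (mul_le_mul i a1 (norm_nonneg _) ((norm_nonneg _).trans i))
    have c2 := (norm_mul_le _ _).trans (mul_le_mul a4 b (norm_nonneg _) zero_le_two)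
    push_cast
    linarith

variable [PartialOrder A] [StarOrderedRing A]

/-- A unitary with imaginary part `a`. -/
noncomputable def un (a : A) : A := CFC.sqrt (1 - a ^ 2) + I • a

theorem un_comm {a g : A} (h : Commute a g) : Commute (un a) g :=
  (Commute.cfcₙ_nnreal ((Commute.one_left g).sub_left (h.pow_left 2)) NNReal.sqrt).add_left
    (h.smul_left _)

theorem un_spec {a : A} (ha : star a = a) (h1 : ‖a‖ ≤ 1) :
    un a ∈ unitary A ∧ 0 ≤ 1 + I • a - un a ∧ 1 + I • a - un a ≤ a ^ 2 ∧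
      star (un a - 1) * (un a - 1) ≤ (2 : ℝ) • a ^ 2 := by
  have a0 : 0 ≤ a ^ 2 := by simpa [sq, ha] using star_mul_self_nonneg a
  have a1 : 0 ≤ 1 - a ^ 2 := by
    rw [sub_nonneg, ← CStarAlgebra.norm_le_one_iff_of_nonneg _ a0, sq]
    exact (norm_mul_le _ _).trans (mul_le_one₀ h1 (norm_nonneg _) h1)
  have c : Commute (CFC.sqrt (1 - a ^ 2)) a :=
    Commute.cfcₙ_nnreal ((Commute.one_left a).sub_left ((Commute.refl a).pow_left 2)) NNReal.sqrt
  have ss := CFC.sqrt_mul_sqrt_self _ a1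
  have s0 := CFC.sqrt_nonneg (1 - a ^ 2)
  unfold un
  generalize CFC.sqrt (1 - a ^ 2) = s at *
  have sa := s0.isSelfAdjoint.star_eq
  have s1 : s ≤ 1 := by
    rw [← CStarAlgebra.norm_le_one_iff_of_nonneg _ s0, ← sq_le_one_iff₀ (norm_nonneg _),
      ← s0.isSelfAdjoint.norm_mul_self, ss, CStarAlgebra.norm_le_one_iff_of_nonneg _ a1]
    exact sub_le_self _ a0
  have s2 : 1 - s ≤ a ^ 2 := by
    have := Commute.mul_nonneg s0 (sub_nonneg.2 s1) ((Commute.one_right s).sub_right (.refl s))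
    rw [mul_sub, ss, mul_one] at this
    rw [← sub_nonneg]
    convert this using 1
    abel
  have st : star (s + I • a) = s - I • a := by simp [sa, ha, sub_eq_add_neg]
  have u1 : (s - I • a) * (s + I • a) = 1 := by
    simp only [mul_add, sub_mul, smul_mul_assoc, mul_smul_comm, ss, c.eq, smul_smul, smul_sub,
      Complex.I_mul_I, sq]
    module
  have u2 : (s + I • a) * (s - I • a) = 1 := by
    simp only [mul_sub, add_mul, smul_mul_assoc, mul_smul_comm, ss, c.eq, smul_smul, smul_add,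
      Complex.I_mul_I, sq]
    module
  have e : 1 + I • a - (s + I • a) = 1 - s := by abel
  refine ⟨⟨by rw [st, u1], by rw [st, u2]⟩, e ▸ sub_nonneg.2 s1, e ▸ s2, ?_⟩
  rw [star_sub, st, star_one, sub_mul, mul_sub, u1, mul_one, one_mul]
  convert smul_le_smul_of_nonneg_left s2 (zero_le_two (α := ℝ)) using 1
  module

variable {T S : Type*} [DecidableEq T]

/-- The random amplitude at a slot. -/
noncomputable def amp (N : Finset T) (Y : T → A) (η : ℝ) (ε : T → Bool) : A :=
  η • ∑ p ∈ N, sg (ε p) • Y p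

variable {N : Finset T} {Y : T → A} {η : ℝ} {B : ℕ}

omit [PartialOrder A] [StarOrderedRing A] [DecidableEq T] in
theorem amp_spec (hY : ∀ p, star (Y p) = Y p ∧ ‖Y p‖ ≤ 1) (hN : N.card ≤ B) (η0 : 0 ≤ η)
    (hB : B * η ≤ 1) (ε : T → Bool) : star (amp N Y η ε) = amp N Y η ε ∧ ‖amp N Y η ε‖ ≤ 1 := by
  refine ⟨by simp [amp, star_sum, (hY _).1], ?_⟩
  rw [amp, norm_smul, Real.norm_of_nonneg η0, mul_comm]
  refine le_trans (mul_le_mul_of_nonneg_right ?_ η0) hB
  refine (norm_sum_le_of_le _ (n := fun _ => 1) fun p _ => ?_).trans (by simpa using hN)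
  rw [norm_smul, Real.norm_eq_abs, abs_sg, one_mul]
  exact (hY p).2

theorem amp_sq {W : Finset (T → Bool)} (hW : Orth W) (hY : ∀ p, star (Y p) = Y p ∧ ‖Y p‖ ≤ 1)
    (hN : N.card ≤ B) : ∑ ε ∈ W, amp N Y η ε ^ 2 ≤ (W.card * (B * η ^ 2)) • (1 : A) := by
  have e : ∑ ε ∈ W, amp N Y η ε ^ 2 = (W.card * η ^ 2) • ∑ p ∈ N, star (Y p) * Y p := by
    simp only [amp, sq, smul_mul_smul_comm, sum_mul_sum, ← smul_sum]
    rw [sum_comm, mul_comm (W.card : ℝ), mul_smul _ (W.card : ℝ), smul_sum (r := (W.card : ℝ))]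
    refine congrArg _ (sum_congr rfl fun p hp => ?_)
    rw [sum_comm, sum_eq_single_of_mem p hp fun q _ h => by rw [← sum_smul, hW p q h.symm, zero_smul]]
    simp [sg_mul_self, (hY p).1, Nat.cast_smul_eq_nsmul]
  rw [e, mul_comm (B : ℝ), ← mul_assoc, mul_smul _ (B : ℝ)]
  refine smul_le_smul_of_nonneg_left ?_ (by positivity)
  calc _ ≤ ∑ p ∈ N, (1 : A) := sum_le_sum fun p _ => (star_mul_self_le_norm_sq _).trans (by
        simpa using smul_le_smul_of_nonneg_right
          ((sq_le_one_iff₀ (norm_nonneg _)).2 (hY p).2) (zero_le_one (α := A)))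
    _ = (N.card : ℝ) • (1 : A) := by simp [Nat.cast_smul_eq_nsmul]
    _ ≤ _ := smul_le_smul_of_nonneg_right (by exact_mod_cast hN) zero_le_one

variable [Fintype T]

theorem avg_un (hY : ∀ p, star (Y p) = Y p ∧ ‖Y p‖ ≤ 1) (hN : N.card ≤ B) (η0 : 0 ≤ η)
    (hB : B * η ≤ 1) {t : T} (ht : t ∈ N) (b : Bool) {W : Finset (T → Bool)}
    (hW : W = univ.filter fun a => a t = b) :
    ‖(W.card : ℝ)⁻¹ • ∑ ε ∈ W, un (amp N Y η ε)‖ ≤ 1 ∧
    ‖(W.card : ℝ)⁻¹ • ∑ ε ∈ W, un (amp N Y η ε) - 1 - ((sg b * η : ℝ) * I) • Y t‖ ≤ B * η ^ 2 := by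
  have W0 : (0 : ℝ) < W.card := by
    exact_mod_cast card_pos.2 ⟨fun _ => b, by simp [hW]⟩
  have sp := fun ε => un_spec (amp_spec hY hN η0 hB ε).1 (amp_spec hY hN η0 hB ε).2
  have hO : Orth W := hW ▸ orth_filter t b
  constructor
  · rw [norm_smul, norm_inv, Real.norm_natCast, inv_mul_le_iff₀ W0]
    exact (norm_sum_le_of_le _ (n := fun _ => 1) fun ε _ => norm_unit_le (sp ε).1).trans (by simp)
  have e1 : ∑ ε ∈ W, amp N Y η ε = (W.card * (sg b * η)) • Y t := by
    simp only [amp, ← smul_sum]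
    have Wt : ∀ ε ∈ W, ε t = b := fun ε h => by simpa [hW] using h
    rw [sum_comm, sum_eq_single_of_mem t ht fun q _ h => ?_]
    · rw [← sum_smul, sum_congr rfl fun ε h => by rw [Wt ε h], smul_smul]
      simp [mul_comm, mul_assoc]
    · have := hO q t h
      rw [sum_congr rfl fun ε h => by rw [Wt ε h], ← sum_mul] at this
      rw [← sum_smul, (mul_eq_zero.1 this).resolve_right (by cases b <;> simp [sg]), zero_smul]
  have e2 : (W.card : ℝ)⁻¹ • ∑ ε ∈ W, un (amp N Y η ε) - 1 - ((sg b * η : ℝ) * I) • Y t =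
      -((W.card : ℝ)⁻¹ • ∑ ε ∈ W, (1 + I • amp N Y η ε - un (amp N Y η ε))) := by
    rw [sum_sub_distrib, sum_add_distrib, ← smul_sum, e1, smul_sub, smul_add, sum_const,
      ← Nat.cast_smul_eq_nsmul ℝ, smul_comm I, smul_smul, smul_smul, inv_mul_cancel₀ W0.ne',
      inv_mul_cancel_left₀ W0.ne', mul_smul, Complex.coe_smul, one_smul]
    abel
  rw [e2, norm_neg, norm_smul, norm_inv, Real.norm_natCast, inv_mul_le_iff₀ W0]
  exact norm_le_of_le_smul (by positivity) (sum_nonneg fun ε _ => (sp ε).2.1)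
    ((sum_le_sum fun ε _ => (sp ε).2.2.1).trans (amp_sq hO hY hN))

theorem steer {N : ℕ → Finset T} {Y : ℕ → T → A} {w : ℕ → A} {d : ℕ} {t : T} {y : A}
    (hY : ∀ j p, star (Y j p) = Y j p ∧ ‖Y j p‖ ≤ 1) (hN : ∀ j, (N j).card ≤ B) (η0 : 0 ≤ η)
    (hB : B * η ≤ 1) (hd : d * η ≤ 1) (hw : ∀ j, w j ∈ unitary A) (ht : ∀ j < d, t ∈ N j)
    (hs : ∀ j < d, ∀ k < j, ∀ p ∈ N j, p ∈ N k → p = t) (hy : ‖y‖ ≤ 1)
    (hYy : ∀ j < d, Y j t = star (pr w (j + 1)) * y * pr w (j + 1)) :
    ‖∑ ε : T → Bool, sg (ε t) • pr (fun j => w j * un (amp (N j) (Y j) η ε)) d -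
      ((Fintype.card (T → Bool) * (d * η) : ℝ) * I) • (y * pr w d)‖ ≤
      Fintype.card (T → Bool) * (d * (d * η ^ 2 + 2 * (B * η ^ 2))) := by
  have key : ∀ b, ∀ W, W = univ.filter (fun a : T → Bool => a t = b) →
      ‖∑ ε ∈ W, (pr (fun j => w j * un (amp (N j) (Y j) η ε)) d - pr w d -
        (d * ((sg (ε t) * η : ℝ) * I)) • (y * pr w d))‖ ≤
        W.card * (d * (d * η ^ 2 + 2 * (B * η ^ 2))) := fun b W hW => by
    have W0 : (0 : ℝ) < W.card := by
      exact_mod_cast card_pos.2 ⟨fun _ => b, by simp [hW]⟩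
    have Wt : ∀ ε, ε ∈ W ↔ ε t = b := fun ε => by simp [hW]
    have pw : ∀ (S : Finset T), ∀ a ∈ W, ∀ c ∈ W, S.piecewise a c t = b := fun S a ha c hc => by
      by_cases h : t ∈ S <;> simp [h, (Wt _).1 ha, (Wt _).1 hc]
    have f : ∀ n ≤ d, ∑ ε ∈ W, pr (fun j => w j * un (amp (N j) (Y j) η ε)) n = (W.card : ℝ) •
        pr (fun j => w j * (W.card : ℝ)⁻¹ • ∑ ε ∈ W, un (amp (N j) (Y j) η ε)) n := fun n hn => by
      induction n with
      | zero => simp [pr, Nat.cast_smul_eq_nsmul]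
      | succ n ih =>
        have := sum_mul_indep W (N n) (fun a ha c hc => (Wt _).2 (pw _ a ha c hc))
          (fun ε => pr (fun j => w j * un (amp (N j) (Y j) η ε)) n)
          (fun ε => w n * un (amp (N n) (Y n) η ε)) (fun a ha c hc => pr_congr fun j hj => ?_)
          (fun a ha c hc => ?_)
        · simp only [pr]
          rw [ih (by omega), ← Nat.cast_smul_eq_nsmul ℝ, ← inv_smul_eq_iff₀ W0.ne'] at this
          rw [← this, ← mul_sum]
          simp only [mul_smul_comm, smul_mul_assoc, smul_comm (W.card : ℝ)⁻¹ (W.card : ℝ)]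
        · refine congrArg (fun z => w j * un (η • z)) (sum_congr rfl fun p hp => ?_)
          by_cases h : p ∈ N n
          · rw [hs n (by omega) j hj p h hp, pw _ a ha c hc, (Wt _).1 hc]
          · rw [piecewise_eq_of_notMem _ _ _ h]
        · exact congrArg (fun z => w n * un (η • z)) (sum_congr rfl fun p hp => by
            rw [piecewise_eq_of_mem _ _ _ hp])
    have g := pr_det (x := (sg b * η : ℝ) * I) (η := η) (β := B * η ^ 2) hw
      (fun j hj => (avg_un (hY j) (hN j) η0 hB (ht j hj) b hW).1) hy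
      (by simp [abs_sg, abs_of_nonneg η0]) hd
      (fun j hj => hYy j hj ▸ (avg_un (hY j) (hN j) η0 hB (ht j hj) b hW).2) d le_rfl
    rw [sum_sub_distrib, sum_sub_distrib, f d le_rfl, sum_const,
      sum_congr rfl fun ε h => by rw [(Wt ε).1 h], sum_const, ← Nat.cast_smul_eq_nsmul ℝ,
      ← Nat.cast_smul_eq_nsmul ℝ, ← smul_sub, ← smul_sub, norm_smul, Real.norm_natCast]
    gcongr
  set F := fun ε : T → Bool => pr (fun j => w j * un (amp (N j) (Y j) η ε)) d - pr w d -
    (d * ((sg (ε t) * η : ℝ) * I)) • (y * pr w d) with hF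
  have e1 : ∑ ε : T → Bool, sg (ε t) • pr (fun j => w j * un (amp (N j) (Y j) η ε)) d -
      ((Fintype.card (T → Bool) * (d * η) : ℝ) * I) • (y * pr w d) = ∑ ε, sg (ε t) • F ε := by
    simp only [hF, smul_sub, sum_sub_distrib, ← sum_smul, sum_sg_univ, zero_smul, sub_zero]
    congr 1
    rw [sum_congr rfl fun ε _ => show _ = (d * (η * I)) • (y * pr w d) by
      rw [← Complex.coe_smul, smul_smul]
      congr 1
      have : ((sg (ε t) : ℝ) : ℂ) * sg (ε t) = 1 := by exact_mod_cast sg_mul_self _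
      push_cast
      linear_combination (d * η * I) * this]
    rw [sum_const, card_univ, ← Nat.cast_smul_eq_nsmul ℂ, smul_smul]
    push_cast
    ring_nf
  rw [e1, ← sum_fiberwise univ (fun ε : T → Bool => ε t), ← card_univ,
    card_eq_sum_card_fiberwise (f := fun ε : T → Bool => ε t) (t := univ) fun _ _ => mem_univ _,
    Nat.cast_sum, sum_mul]
  refine norm_sum_le_of_le _ fun b _ => ?_
  rw [sum_congr rfl fun ε h => by rw [(mem_filter.1 h).2], ← smul_sum, norm_smul, Real.norm_eq_abs,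
    abs_sg, one_mul]
  exact key b _ rfl

end Vale.Agent.P085
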