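import Vale.Agent.P085.TrLem
import Vale.Agent.P085.Signs

/-! The combinatorial design and auxiliary lemmas. -/

namespace Vale.Agent.P085

open Finset Vale.Agent.P104
open scoped InnerProductSpace ComplexConjugate
open Complex (I)

theorem exists_design {d : ℕ} (hd : 0 < d) : ∃ K0 : ℕ, ∀ K ≥ K0,
    ∃ (s : Fin K × Fin K → ℕ → Fin K × Fin K) (N : Fin K × Fin K → Finset (Fin K × Fin K))
      (lay : Fin K × Fin K → ℕ), (∀ σ, (N σ).card ≤ 18 * d) ∧
      (∀ t, ∀ j < d, t ∈ N (s t j) ∧ lay (s t j) = j ∧ 0 < ((s t j).2 : ℕ) ∧ (s t j).2 < (s t j).1) ∧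
      ∀ t, ∀ j < d, ∀ k < j, ∀ p ∈ N (s t j), p ∈ N (s t k) → p = t := by
  classical
  refine ⟨2 * (2 * (d * (18 * d * d + 1)) + 2) + 2, fun K hK => ?_⟩
  obtain ⟨L, L1, L2⟩ : ∃ L, 2 * L + 1 ≤ K ∧ K ≤ 2 * L + 2 := ⟨(K - 1) / 2, by omega, by omega⟩
  have : NeZero K := ⟨by omega⟩
  set B := 18 * d with hB
  have B0 : 0 < B := by omega
  set R := K * K / B + (B * d + 1) with hR
  have hRL : d * R ≤ L * L := by
    have a1 : B * (K * K / B) ≤ K * K := Nat.mul_div_le _ _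
    have a2 : K * K ≤ (2 * L + 2) * (2 * L + 2) := Nat.mul_le_mul L2 L2
    have a3 : 2 * (d * (B * d + 1)) + 2 ≤ L := by omega
    rw [hR, mul_add]
    generalize K * K / B = X at *
    generalize d * (B * d + 1) = Y at *
    have : 18 * (d * X) ≤ (2 * L + 2) * (2 * L + 2) := by rw [← mul_assoc]; exact a1.trans a2
    nlinarith
  let n : Fin K × Fin K → ℕ := fun t => finProdFinEquiv t
  let c : Fin K × Fin K → ℕ → ℕ := fun t j => n t / B + n t % B * j
  have c1 : ∀ t, ∀ j < d, c t j < R := fun t j hj => by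
    have a1 : n t / B ≤ K * K / B := Nat.div_le_div_right (finProdFinEquiv t).2.le
    have a2 : n t % B * j ≤ B * d := Nat.mul_le_mul (Nat.mod_lt _ B0).le hj.le
    simp only [c]
    omega
  have c2 : ∀ t, ∀ j < d, c t j + R * j < L * L := fun t j hj => by
    have := c1 t j hj
    have : R * (j + 1) ≤ R * d := Nat.mul_le_mul_left _ hj
    nlinarith
  let s : Fin K × Fin K → ℕ → Fin K × Fin K := fun t j =>
    (Fin.ofNat K (L + 1 + (c t j + R * j) / L), Fin.ofNat K (1 + (c t j + R * j) % L))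
  have L0 : 0 < L := by omega
  have s1 : ∀ t, ∀ j < d, ((s t j).1 : ℕ) = L + 1 + (c t j + R * j) / L := fun t j hj =>
    Nat.mod_eq_of_lt (by have := Nat.div_lt_of_lt_mul (c2 t j hj); omega)
  have s2 : ∀ t j, ((s t j).2 : ℕ) = 1 + (c t j + R * j) % L := fun t j =>
    Nat.mod_eq_of_lt (by have := Nat.mod_lt (c t j + R * j) L0; omega)
  have inj : ∀ t, ∀ j < d, ∀ p, ∀ k < d, s p k = s t j → k = j ∧ c p j = c t j := by
    intro t j hj p k hk h
    have a1 := s1 p k hk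
    have a2 := s2 p k
    rw [h, s1 t j hj] at a1
    rw [h, s2 t j] at a2
    have a3 : c t j + R * j = c p k + R * k := by
      rw [← Nat.div_add_mod (c t j + R * j) L, ← Nat.div_add_mod (c p k + R * k) L]
      congr 1
      · congr 1; omega
      · omega
    have R0 : 0 < R := (Nat.zero_le _).trans_lt (c1 t j hj)
    have a4 : k = j := by
      have := congrArg (· / R) a3
      simpa [Nat.add_mul_div_left _ _ R0, Nat.div_eq_of_lt (c1 t j hj),
        Nat.div_eq_of_lt (c1 p k hk), eq_comm] using this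
    subst a4
    exact ⟨rfl, by omega⟩
  have ext : ∀ p t j, c p j = c t j → n p % B = n t % B → p = t := fun p t j h1 h2 => by
    simp only [c, h2] at h1
    refine finProdFinEquiv.injective (Fin.ext ?_)
    change n p = n t
    rw [← Nat.div_add_mod (n p) B, ← Nat.div_add_mod (n t) B, h2, Nat.add_right_cancel h1]
  refine ⟨s, fun σ => univ.filter fun t => ∃ j < d, s t j = σ,
    fun σ => if h : ∃ j < d, ∃ t, s t j = σ then h.choose else 0, fun σ => ?_,
    fun t j hj => ⟨by simpa using ⟨j, hj, rfl⟩, ?_, by rw [s2]; omega, ?_⟩, ?_⟩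
  · rw [← card_range B]
    refine card_le_card_of_injOn (fun t => n t % B) (fun t _ => by simpa using Nat.mod_lt _ B0) ?_
    intro p hp t ht h
    obtain ⟨k, hk, rfl⟩ := (mem_filter.1 hp).2
    obtain ⟨j, hj, e⟩ := (mem_filter.1 ht).2
    exact ext p t k (inj p k hk t j hj e).2.symm h
  · have h : ∃ k < d, ∃ p, s p k = s t j := ⟨j, hj, t, rfl⟩
    beta_reduce
    rw [dif_pos h]
    obtain ⟨a, p, b⟩ := h.choose_spec
    exact (inj t j hj p _ a b).1
  · rw [Fin.lt_def, s1 t j hj, s2]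
    have := Nat.mod_lt (c t j + R * j) L0
    generalize (c t j + R * j) / L = X
    omega
  · intro t j hj k hk p h1 h2
    obtain ⟨a, ha, e1⟩ := (mem_filter.1 h1).2
    obtain ⟨b, hb, e2⟩ := (mem_filter.1 h2).2
    have a1 := (inj t j hj p a ha e1).2
    have a2 := (inj t k (by omega) p b hb e2).2
    refine ext p t j a1 ?_
    simp only [c] at a1 a2
    generalize n p % B = x at *
    generalize n t % B = y at *
    have : ((x : ℤ) - y) * ((j : ℤ) - k) = 0 := by
      zify at a1 a2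
      linear_combination a1 - a2
    rcases mul_eq_zero.1 this with h | h <;> omega

variable {A E : Type*} [CStarAlgebra A] [NormedAddCommGroup E] [InnerProductSpace ℂ E]
  {τ : A →ₗ[ℂ] ℂ} {Λ : A →ₗ[ℂ] E}

theorem rebase {J : Type*} [Fintype J] [DecidableEq J] {v : J → A} {g e b : A} (h : Frame v g e)
    (h1 : star b * b = g) (h2 : b * g = b) : Frame (fun i => v i * star b) (b * star b) e := by
  have h3 : g * star b = star b := by rw [← h.sa, ← star_mul, h2]
  refine ⟨by simp, ?_, fun i j => ?_, ?_, fun i => ?_⟩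
  · rw [mul_assoc, ← mul_assoc (star b), h1, h3]
  · rw [star_mul, star_star, mul_assoc, ← mul_assoc (star (v i)), h.orth]
    split_ifs
    · rw [h3]
    · simp
  · rw [← h.sum]
    exact sum_congr rfl fun i _ => by
      rw [star_mul, star_star, mul_assoc, ← mul_assoc (star b), h1, h.fix']
  · rw [mul_assoc, ← mul_assoc (star b), h1, h3]

variable [PartialOrder A] [StarOrderedRing A]

theorem flat2 (h : Tr τ Λ) {e : A} (hcen : ∀ x, e * x = x * e) (hs : ∀ x, τ (x * e) = τ x)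
    {r : A} (hr : ‖r‖ ≤ 2) {J : Type} [Fintype J] [DecidableEq J] (o : J)
    {v : J → A} {g : A} (hv : Frame v g e) :
    ∃ (w f : J → A) (H : J → J → ℂ), Frame w (w o) e ∧
      (∀ i, w i * star (w i) = v i * star (v i)) ∧ Frame f (w o) e ∧
      (∀ x, f x = ∑ i, H x i • w i) ∧
      ∑ x, ∑ a, ‖Λ (star (f x) * r * w a * star (star (f x) * r * w a))‖ ^ 2 ≤
          (48 * ‖Λ 1‖ ^ 2 + 1) / Fintype.card J := by
  have : Nonempty J := ⟨o⟩
  obtain ⟨w, H, h1, h2, h3, h4⟩ := h.flat1 hcen hs hr hv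
  have b1 : star (w o) * w o = g := by rw [h1.orth, if_pos rfl]
  have b2 : ‖w o‖ ≤ 1 := by
    rw [← sq_le_one_iff₀ (norm_nonneg _), sq, ← CStarRing.norm_star_mul_self, b1]
    exact h1.proj'.norm_le
  have b3 : ∀ i x, w i * (star (w o) * (w o * x)) = w i * x := fun i x => by
    rw [← mul_assoc (star _), b1, ← mul_assoc, h1.fix]
  refine ⟨fun i => w i * star (w o), fun x => (∑ i, H x i • w i) * star (w o), H,
    rebase h1 b1 (h1.fix o), fun i => ?_, rebase h3 b1 (h1.fix o), fun x => ?_,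
    le_trans (sum_le_sum fun x _ => sum_le_sum fun a _ => ?_) h4⟩
  · rw [← h2, star_mul, star_star, mul_assoc, b3]
  · simp only [sum_mul, smul_mul_assoc]
  · beta_reduce
    generalize ∑ i, H x i • w i = F
    have : star (F * star (w o)) * r * (w a * star (w o)) *
        star (star (F * star (w o)) * r * (w a * star (w o))) =
        w o * (star F * r * w a * star (star F * r * w a) * star (w o)) := by
      simp only [star_mul, star_star, mul_assoc, b3]
    rw [this]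
    refine pow_le_pow_left₀ (norm_nonneg _) ((h.mul_l _ _).trans ?_) 2
    refine (mul_le_of_le_one_left (norm_nonneg _) b2).trans ((h.mul_r _ _).trans ?_)
    exact mul_le_of_le_one_right (norm_nonneg _) (by rwa [norm_star])

theorem polar_mem {P : StarSubalgebra ℂ A} (hP : IsClosed (P : Set A)) {V g k : A} {l : ℝ}
    (hl : 0 < l) (hV : star V * V * g = g) (hg : IsStarProjection g) (gP : g ∈ P) (k0 : 0 ≤ k)
    (gk : g * k = k) (hx : V * (k + l • g) ∈ P) : V * g ∈ P := by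
  have kg : k * g = k := by
    rw [← hg.isSelfAdjoint.star_eq, ← k0.isSelfAdjoint.star_eq, ← star_mul, gk]
  have gg := hg.isIdempotentElem.eq
  have le : l • (1 : A) ≤ k + l • 1 := le_add_of_nonneg_left k0
  have ks : IsSelfAdjoint (k + l • (1 : A)) :=
    ((smul_nonneg hl.le zero_le_one).trans le).isSelfAdjoint
  have e1 : (k + l • (1 : A)) ^ 2 =
      star (V * (k + l • g)) * (V * (k + l • g)) + (l * l) • (1 - g) := by
    have : star V * (V * (k + l • g)) = k + l • g := by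
      have : g * (k + l • g) = k + l • g := by rw [mul_add, gk, mul_smul_comm, gg]
      rw [← this, ← mul_assoc, ← mul_assoc, hV]
    rw [star_mul, mul_assoc, this]
    simp only [sq, star_add, star_smul, k0.isSelfAdjoint.star_eq, hg.isSelfAdjoint.star_eq,
      star_trivial, add_mul, mul_add, smul_mul_assoc, mul_smul_comm, gk, kg, gg, one_mul, mul_one]
    module
  have rs : ∀ (c : ℝ) x, x ∈ P → c • x ∈ P := fun c x hx => by
    rw [← Complex.coe_smul]; exact P.smul_mem hx _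
  have m1 : (k + l • (1 : A)) ^ 2 ∈ P :=
    e1 ▸ add_mem (mul_mem (star_mem hx) hx) (rs _ _ (sub_mem (one_mem _) gP))
  have e2 : V * (k + l • g) = V * g * (k + l • 1) := by
    simp [mul_add, mul_assoc, gk]
  generalize k + l • (1 : A) = c at *
  have ct : Continuous fun s : ℝ => (√(max s (l ^ 2)))⁻¹ :=
    Continuous.inv₀ (by fun_prop) fun s =>
      (Real.sqrt_pos.2 (lt_max_of_lt_right (by positivity))).ne'
  have e3 : c * cfc (fun s : ℝ => (√(max s (l ^ 2)))⁻¹) (c ^ 2) = 1 := by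
    rw [← cfc_comp_pow _ 2 c ct.continuousOn]
    nth_rw 1 [← cfc_id' ℝ c]
    rw [← cfc_mul (fun s : ℝ => s) (fun s : ℝ => (√(max (s ^ 2) (l ^ 2)))⁻¹) c (by fun_prop)
      (ct.comp (continuous_pow 2)).continuousOn, ← cfc_const_one ℝ c]
    refine cfc_congr fun s hs => ?_
    have : l ≤ s := (algebraMap_le_iff_le_spectrum (R := ℝ) ks).1
      (by rwa [Algebra.algebraMap_eq_smul_one]) s hs
    have s0 : 0 < s := hl.trans_le this
    rw [max_eq_left (by gcongr), Real.sqrt_sq s0.le, mul_inv_cancel₀ s0.ne']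
  have := mul_mem hx (cfc_mem (𝕜' := ℂ) (fun s : ℝ => (√(max s (l ^ 2)))⁻¹) m1)
  rwa [e2, mul_assoc, e3, mul_one] at this

theorem per_target (h : Tr τ Λ) {Ω : Type*} [Fintype Ω] {W : Ω → A} (hW : ∀ ε, W ε ∈ unitary A)
    {σ : Ω → ℝ} (hσ : ∀ ε, |σ ε| = 1) {g ρ ω y : A} (hg : star g = g) (hρ : ρ * g = ρ) {ξ : ℂ}
    (hξ : ‖ξ‖ = 1) {α θ β : ℝ} (hα : 0 ≤ α)
    (hst : ‖∑ ε, σ ε • W ε - ((Fintype.card Ω * θ : ℝ) * I) • (y * ω)‖ ≤ Fintype.card Ω * β) :
    ∑ ε, ‖Λ (ρ - (σ ε * (α * ξ * -I)) • (W ε * g))‖ ^ 2 ≤ Fintype.card Ω *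
      (‖Λ ρ‖ ^ 2 - 2 * α * θ * (⟪Λ (ξ • y), Λ (ρ * star ω)⟫_ℂ).re + 2 * α ^ 2 * ‖Λ g‖ ^ 2 +
        β ^ 2 * ‖Λ ρ‖ ^ 2) := by
  have n1 : ‖(α * ξ * -I : ℂ)‖ = α := by simp [hξ, abs_of_nonneg hα]
  have e1 : ∀ ε, ‖Λ (ρ - (σ ε * (α * ξ * -I)) • (W ε * g))‖ ^ 2 = ‖Λ ρ‖ ^ 2 -
      2 * (⟪Λ ρ, Λ ((σ ε * (α * ξ * -I)) • (W ε * g))⟫_ℂ).re + α ^ 2 * ‖Λ g‖ ^ 2 := fun ε => by
    rw [map_sub, norm_sub_sq (𝕜 := ℂ), RCLike.re_to_complex]
    congr 1
    rw [map_smul, norm_smul, norm_mul, n1, h.norm_ul (hW ε), Complex.norm_real, Real.norm_eq_abs,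
      hσ, one_mul, mul_pow]
  set R := ∑ ε, σ ε • W ε - ((Fintype.card Ω * θ : ℝ) * I) • (y * ω) with hR
  have e2 : ∑ ε, (σ ε * (α * ξ * -I)) • (W ε * g) =
      ((Fintype.card Ω * (α * θ) : ℝ) : ℂ) • ((ξ • y) * ω * g) + (α * ξ * -I) • (R * g) := by
    simp only [hR, sub_mul, sum_mul, smul_mul_assoc, smul_sub, smul_sum, ← Complex.coe_smul,
      smul_smul, mul_comm (σ _ : ℂ)]
    rw [add_sub_left_comm, ← sub_smul]
    convert (add_zero _).symm
    convert zero_smul ℂ _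
    push_cast
    linear_combination (Fintype.card Ω * α * θ * ξ) * Complex.I_mul_I
  have e3 : (⟪Λ ρ, Λ ((ξ • y) * ω * g)⟫_ℂ).re = (⟪Λ (ξ • y), Λ (ρ * star ω)⟫_ℂ).re := by
    rw [← inner_conj_symm, Complex.conj_re, h.inner, h.inner, star_mul, star_mul, hg, mul_assoc,
      h.tr, mul_assoc, hρ, mul_assoc, h.tr, mul_assoc]
  have e4 : ‖⟪Λ ρ, Λ ((α * ξ * -I) • (R * g))⟫_ℂ‖ ≤
      ‖Λ ρ‖ * (α * (Fintype.card Ω * β * ‖Λ g‖)) := by
    refine (norm_inner_le_norm _ _).trans (mul_le_mul_of_nonneg_left ?_ (norm_nonneg _))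
    rw [map_smul, norm_smul, n1]
    exact mul_le_mul_of_nonneg_left ((h.mul_l _ _).trans
      (mul_le_mul_of_nonneg_right hst (norm_nonneg _))) hα
  have e5 := (abs_le.1 ((Complex.abs_re_le_norm _).trans e4)).1
  simp only [e1, sum_add_distrib, sum_sub_distrib, sum_const, card_univ, nsmul_eq_mul, ← mul_sum,
    ← Complex.re_sum, ← inner_sum, ← map_sum]
  rw [e2, map_add, inner_add_right, map_smul, inner_smul_right, Complex.add_re,
    Complex.re_ofReal_mul, e3]
  have := mul_nonneg (Nat.cast_nonneg (α := ℝ) (Fintype.card Ω))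
    (sq_nonneg (α * ‖Λ g‖ - β * ‖Λ ρ‖))
  nlinarith

end Vale.Agent.P085
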