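import Vale.Agent.P085.Core2

/-! A generic self-adjoint contraction generates together with a tower. -/

namespace Vale.Agent.P085

open Finset Vale.Agent.P104 Filter Topology

variable {A E : Type*} [CStarAlgebra A] [NormedAddCommGroup E] [InnerProductSpace ℂ E]
  {τ : A →ₗ[ℂ] ℂ} {Λ : A →ₗ[ℂ] E}

/-- The closed star subalgebra generated by a set. -/
noncomputable def Cl (S : Set A) : StarSubalgebra ℂ A := (StarAlgebra.adjoin ℂ S).topologicalClosure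

theorem Cl_closed (S : Set A) : IsClosed (Cl S : Set A) :=
  StarSubalgebra.isClosed_topologicalClosure _

theorem adj_Cl {S : Set A} {x : A} (hx : x ∈ StarAlgebra.adjoin ℂ S) : x ∈ Cl S :=
  StarSubalgebra.le_topologicalClosure _ hx

theorem mem_Cl {S : Set A} {x : A} (hx : x ∈ S) : x ∈ Cl S :=
  adj_Cl (StarAlgebra.subset_adjoin ℂ S hx)

/-- Self-adjoint contractions under `e`. -/
def Ball (_Λ : A →ₗ[ℂ] E) (e : A) : Type _ := {a : A // star a = a ∧ ‖a‖ ≤ 1 ∧ e * a = a}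

noncomputable instance (e : A) : PseudoMetricSpace (Ball Λ e) :=
  PseudoMetricSpace.induced (fun a => Λ a.1) inferInstance

theorem dist_ball {e : A} (a b : Ball Λ e) : dist a b = ‖Λ (a.1 - b.1)‖ := by
  rw [map_sub, ← dist_eq_norm]
  rfl

variable [PartialOrder A] [StarOrderedRing A]

theorem near_adj (h : Tr τ Λ) {e : A} {Q : Set A} (a : Ball Λ e) {q : A}
    (hq : q ∈ StarAlgebra.adjoin ℂ (insert a.1 Q)) : ∃ (F : Ball Λ e → A) (C : ℝ),
      (∀ x, F x ∈ Cl (insert x.1 Q) ∧ ‖F x‖ ≤ C) ∧ Tendsto (fun x => ‖Λ (F x - q)‖) (𝓝 a) (𝓝 0) := by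
  induction hq using StarAlgebra.adjoin_induction with
  | mem x hx =>
    rcases hx with rfl | hx
    · exact ⟨fun x => x.1, 1, fun x => ⟨mem_Cl (.inl rfl), x.2.2.1⟩, by
        simpa only [← dist_ball, id] using tendsto_iff_dist_tendsto_zero.1 tendsto_id⟩
    · exact ⟨fun _ => x, ‖x‖, fun _ => ⟨mem_Cl (.inr hx), le_rfl⟩, by simp⟩
  | algebraMap r => exact ⟨fun _ => algebraMap ℂ A r, _, fun _ => ⟨algebraMap_mem _ _, le_rfl⟩, by simp⟩
  | add x y _ _ hx hy =>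
    obtain ⟨F, C, h1, h2⟩ := hx
    obtain ⟨G, D, h3, h4⟩ := hy
    refine ⟨fun z => F z + G z, C + D, fun z => ⟨add_mem (h1 z).1 (h3 z).1,
      norm_add_le_of_le (h1 z).2 (h3 z).2⟩, squeeze_zero (fun _ => norm_nonneg _) (fun z => ?_)
      (by simpa using h2.add h4)⟩
    rw [add_sub_add_comm, map_add]
    simpa using norm_add_le _ _
  | mul x y _ _ hx hy =>
    obtain ⟨F, C, h1, h2⟩ := hx
    obtain ⟨G, D, h3, h4⟩ := hy
    refine ⟨fun z => F z * G z, C * D, fun z => ⟨mul_mem (h1 z).1 (h3 z).1,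
      norm_mul_le_of_le (h1 z).2 (h3 z).2⟩, squeeze_zero (fun _ => norm_nonneg _) (fun z => ?_)
      (g := fun z => C * ‖Λ (G z - y)‖ + ‖Λ (F z - x)‖ * ‖y‖)
      (by simpa using (h4.const_mul C).add (h2.mul_const ‖y‖))⟩
    rw [show F z * G z - x * y = F z * (G z - y) + (F z - x) * y by noncomm_ring, map_add]
    exact norm_add_le_of_le ((h.mul_l _ _).trans
      (mul_le_mul_of_nonneg_right (h1 z).2 (norm_nonneg _))) (h.mul_r _ _)
  | star x _ hx =>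
    obtain ⟨F, C, h1, h2⟩ := hx
    exact ⟨fun z => star (F z), C, fun z => ⟨star_mem (h1 z).1, by simpa using (h1 z).2⟩, by
      simpa only [← star_sub, h.norm_star] using h2⟩

theorem near (h : Tr τ Λ) {e : A} {Q : Set A} (a : Ball Λ e) {q : A} (hq : q ∈ Cl (insert a.1 Q))
    {β : ℝ} (hβ : 0 < β) : ∀ᶠ x in 𝓝 a, ∃ q' ∈ Cl (insert x.1 Q), ‖Λ (q' - q)‖ < β := by
  obtain ⟨p, p1, p2⟩ := Metric.mem_closure_iff.1 hq (β / 2 / (‖Λ 1‖ + 1)) (by positivity)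
  obtain ⟨F, C, h1, h2⟩ := near_adj h a p1
  filter_upwards [h2.eventually (gt_mem_nhds (half_pos hβ))] with x hx
  refine ⟨F x, (h1 x).1, ?_⟩
  rw [dist_comm, dist_eq_norm, lt_div_iff₀ (by positivity)] at p2
  have := h.le_one (p - q)
  rw [← sub_add_sub_cancel _ p, map_add]
  nlinarith [norm_add_le (Λ (F x - p)) (Λ (p - q)), norm_nonneg (p - q)]

theorem contr_approx (h : Tr τ Λ) {S : Set A} {v q : A} (v1 : star v = v) (v2 : ‖v‖ ≤ 1)
    (hq : q ∈ Cl S) : ∃ p ∈ Cl S, ‖p‖ ≤ 1 ∧ ‖Λ (v - p)‖ ≤ ‖Λ (v - q)‖ := by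
  have := Cl_closed S
  refine ⟨cfc clip ((2 : ℝ)⁻¹ • (q + star q)),
    cfc_mem (𝕜' := ℂ) _ (rsmul_mem _ (add_mem hq (star_mem hq))), norm_clip id _, ?_⟩
  rw [← neg_sub, map_neg, norm_neg, ← neg_sub q, map_neg, norm_neg]
  refine (h.clip_le (by simp [add_comm]) v1 v2).trans (le_of_eq_of_le ?_ (h.norm_re _))
  rw [star_sub, v1]
  congr 2
  module

theorem generic (h : Tr τ Λ) {e : A} (hcen : ∀ x, e * x = x * e) (hs : ∀ x, τ (x * e) = τ x)
    (hI : Inv e) {Q : Set A} (hT : ∀ m : ℕ, ∃ K ≥ m, ∃ (v : Fin K → A) (g : A), Frame v g e ∧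
      ∀ i, v i * star (v i) ∈ Q)
    (hC : ∀ u : ℕ → A, (∀ n, star (u n) = u n ∧ ‖u n‖ ≤ 1 ∧ e * u n = u n) →
      CauchySeq (fun n => Λ (u n)) → ∃ a, (star a = a ∧ ‖a‖ ≤ 1 ∧ e * a = a) ∧
        Tendsto (fun n => Λ (u n)) atTop (𝓝 (Λ a)))
    (V : ℕ → A) (hV : ∀ n, star (V n) = V n ∧ ‖V n‖ ≤ 1) :
    ∃ a, star a = a ∧ e * a = a ∧ ∀ n, ∀ ε > 0, ∃ q ∈ Cl (insert a Q), ‖q‖ ≤ 1 ∧
      ‖Λ (V n - q)‖ < ε := by
  have : CompleteSpace (Ball Λ e) := Metric.complete_of_cauchySeq_tendsto fun u hu => by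
    obtain ⟨a, a1, a2⟩ := hC (fun n => (u n).1) (fun n => (u n).2)
      (Metric.cauchySeq_iff.2 (Metric.cauchySeq_iff.1 hu :))
    exact ⟨⟨a, a1⟩, tendsto_iff_dist_tendsto_zero.2 (tendsto_iff_dist_tendsto_zero.1 a2 :)⟩
  let O : ℕ → ℝ → Set (Ball Λ e) := fun n s =>
    {x | ∃ q ∈ Cl (insert x.1 Q), ‖Λ (V n - q)‖ ^ 2 < s}
  have add : ∀ x y : ℝ, 0 ≤ x → x ^ 2 < y → ∃ β > 0, ∀ t γ, 0 ≤ t → 0 ≤ γ → t ^ 2 ≤ x ^ 2 - γ →
      ∀ u, 0 ≤ u → u ≤ t + β → u ^ 2 < y - γ := fun x y x0 hy => by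
    refine ⟨min 1 ((y - x ^ 2) / (2 * x + 2)), lt_min one_pos (div_pos (by linarith)
      (by positivity)), fun t γ t0 γ0 ht u u0 hu => ?_⟩
    have b0 : 0 < min 1 ((y - x ^ 2) / (2 * x + 2)) :=
      lt_min one_pos (div_pos (by linarith) (by positivity))
    have b1 := min_le_left 1 ((y - x ^ 2) / (2 * x + 2))
    have b2 := (le_div_iff₀ (by positivity)).1 (min_le_right 1 ((y - x ^ 2) / (2 * x + 2)))
    generalize min 1 ((y - x ^ 2) / (2 * x + 2)) = β at *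
    have : t ≤ x := (pow_le_pow_iff_left₀ t0 x0 two_ne_zero).1 (by linarith)
    have := pow_le_pow_left₀ u0 hu 2
    nlinarith
  have op : ∀ n s, IsOpen (O n s) := fun n s => isOpen_iff_mem_nhds.2 fun x ⟨q, q1, q2⟩ => by
    obtain ⟨β, β0, hβ⟩ := add _ _ (norm_nonneg _) q2
    filter_upwards [near h x q1 β0] with y ⟨p, p1, p2⟩
    refine ⟨p, p1, (hβ _ 0 (norm_nonneg (Λ (V n - q))) le_rfl (by simp) _ (norm_nonneg _)
      ?_).trans_eq (sub_zero _)⟩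
    rw [show V n - p = V n - q - (p - q) by abel, map_sub]
    exact norm_sub_le_of_le le_rfl p2.le
  have dn : ∀ n, ∀ ε > 0, Dense (O n (ε ^ 2)) := fun n ε hε => by
    obtain ⟨γ, γ0, hγ⟩ := core h hcen hs hI hε
    have step : ∀ s, Dense (O n s) → Dense (O n (max (ε ^ 2) (s - γ))) := fun s hs => by
      refine dense_iff_inter_open.2 fun U hU hne => ?_
      obtain ⟨x, xU, q0, q1, q2⟩ := hs.inter_open_nonempty U hU hne
      obtain ⟨q, q3, q4, q5⟩ := contr_approx h (hV n).1 (hV n).2 q1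
      rcases lt_or_ge ‖Λ (V n - q)‖ ε with c | c
      · exact ⟨x, xU, q, q3, lt_max_of_lt_left (by gcongr)⟩
      obtain ⟨β, β0, hβ⟩ := add _ s (norm_nonneg (Λ (V n - q)))
        ((pow_le_pow_left₀ (norm_nonneg _) q5 2).trans_lt q2)
      obtain ⟨η, η0, hη⟩ := Metric.eventually_nhds_iff.1
        ((near h x q3 β0).and (hU.mem_nhds xU))
      obtain ⟨K0, hK0⟩ := hγ (η / 2) (half_pos η0)
      obtain ⟨K, hK, v, g, hv, vQ⟩ := hT K0
      obtain ⟨a, z, a1, a2, a3, a4, a5, a6⟩ := hK0 K hK v g hv x.1 x.2.1 x.2.2.1 x.2.2.2 (V n - q)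
        ((norm_sub_le_of_le (hV n).2 q4).trans_eq (by norm_num)) c
      obtain ⟨⟨p, p1, p2⟩, yU⟩ := hη (y := ⟨a, a1, a2, a3⟩)
        ((dist_ball _ _).trans_lt (a4.trans_lt (half_lt_self η0)))
      refine ⟨_, yU, p + z, add_mem p1 (a6 _ (Cl_closed _) (fun i => mem_Cl (.inr (vQ i)))
        (mem_Cl (.inl rfl))), lt_max_of_lt_right (hβ _ γ (norm_nonneg _) γ0.le a5 _
          (norm_nonneg _) ?_)⟩
      rw [show V n - (p + z) = V n - q - z - (p - q) by abel, map_sub]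
      exact norm_sub_le_of_le le_rfl p2.le
    have mono : ∀ s t, s ≤ t → Dense (O n s) → Dense (O n t) := fun s t hst hs =>
      hs.mono fun x hx => hx.imp fun q hq => ⟨hq.1, hq.2.trans_le hst⟩
    have all : ∀ k : ℕ, Dense (O n (max (ε ^ 2) (‖Λ (V n)‖ ^ 2 + 1 - k * γ))) := fun k => by
      induction k with
      | zero => exact fun x => subset_closure ⟨0, zero_mem _, lt_max_of_lt_right (by simp)⟩
      | succ k ih =>
        refine mono _ _ (max_le (le_max_left _ _) ?_) (step _ ih)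
        rw [← max_sub_sub_right]
        exact max_le_max (by linarith) (by push_cast; linarith)
    obtain ⟨k, hk⟩ := exists_nat_ge ((‖Λ (V n)‖ ^ 2 + 1) / γ)
    rw [div_le_iff₀ γ0] at hk
    exact mono _ _ (max_le le_rfl (by nlinarith [sq_nonneg ε])) (all k)
  have : Nonempty (Ball Λ e) := ⟨⟨0, by simp⟩⟩
  obtain ⟨a, ha⟩ := (dense_iInter_of_isOpen (f := fun p : ℕ × ℕ => O p.1 ((1 / (p.2 + 1)) ^ 2))
    (fun p => op _ _) fun p => dn _ _ Nat.one_div_pos_of_nat).nonempty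
  refine ⟨a.1, a.2.1, a.2.2.2, fun n ε hε => ?_⟩
  obtain ⟨k, hk⟩ := exists_nat_one_div_lt hε
  obtain ⟨q0, q1, q2⟩ := Set.mem_iInter.1 ha (n, k)
  obtain ⟨q, q3, q4, q5⟩ := contr_approx h (hV n).1 (hV n).2 q1
  exact ⟨q, q3, q4, q5.trans_lt ((lt_of_pow_lt_pow_left₀ 2 (by positivity) q2).trans hk)⟩

end Vale.Agent.P085
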