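import Vale.Agent.P085.Dense
import Vale.Agent.P085.Design

/-! Gluing local generators. -/

namespace Vale.Agent.P085

open Vale.Agent.P104 Filter Topology Finset

variable {K : Type*} [NormedAddCommGroup K] [InnerProductSpace ℂ K] [CompleteSpace K]
  {M : VonNeumannAlgebra K}

theorem exists_sup {ι : Type*} (v : ι → K →L[ℂ] K) (hv : ∀ i, v i ∈ M) :
    ∃ f ∈ M, IsStarProjection f ∧ (∀ i, f * v i = v i) ∧ ∀ y, (∀ i, y * v i = 0) → y * f = 0 := by
  obtain ⟨U, hU⟩ : ∃ U, U = Submodule.span ℂ {z | ∃ i y, z = v i y} := ⟨_, rfl⟩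
  refine ⟨U.topologicalClosure.starProjection, mem_of_commute fun y hy => ?_,
    isStarProjection_starProjection, fun i => ContinuousLinearMap.ext fun z =>
    Submodule.starProjection_eq_self_iff.2
      (U.le_topologicalClosure (hU ▸ Submodule.subset_span ⟨i, z, rfl⟩)), fun y hy => ?_⟩
  · have : ∀ y ∈ M.commutant, ∀ z ∈ U.topologicalClosure, y z ∈ U.topologicalClosure :=
      fun y hy z hz => by
      refine map_mem_closure y.continuous hz fun z hz => ?_
      rw [hU] at *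
      refine Submodule.mem_comap (f := y.toLinearMap).1 (Submodule.span_le.2 ?_ hz)
      rintro _ ⟨i, z, rfl⟩
      exact Submodule.subset_span ⟨i, y z, congrArg (fun T : K →L[ℂ] K => T z)
        (commute_of_mem (hv i) hy).symm⟩
    exact commute_starProjection _ _ (this y hy) (this _ (star_mem hy))
  · have : U.topologicalClosure ≤ y.ker := by
      refine Submodule.topologicalClosure_minimal _ (hU ▸ Submodule.span_le.2 ?_) y.isClosed_ker
      rintro _ ⟨i, z, rfl⟩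
      exact congrArg (fun T : K →L[ℂ] K => T z) (hy i)
    exact ContinuousLinearMap.ext fun z => this (Submodule.starProjection_apply_mem _ z)

theorem mem_of_blocks {N : VonNeumannAlgebra K} {ι : Type*} {p : ι → K →L[ℂ] K} {f T : K →L[ℂ] K}
    (hp : ∀ i, p i ∈ N ∧ star (p i) = p i) (hf : f ∈ N) (sf : star f = f)
    (hs : ∀ y, (∀ i, y * p i = 0) → y * f = 0) (hT : f * T * f = T)
    (h : ∀ i j, p i * T * p j ∈ N) : T ∈ N := by
  refine mem_of_commute fun S hS => ?_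
  have c : ∀ x ∈ N, ∀ y ∈ N, x * (S * T - T * S) * y = S * (x * T * y) - x * T * y * S :=
    fun x hx y hy => by
    rw [mul_sub, sub_mul, ← mul_assoc x S, commute_of_mem hx hS, mul_assoc (x * T),
      commute_of_mem hy hS]
    simp only [mul_assoc]
  have h1 : ∀ i, p i * (S * T - T * S) * f = 0 := fun i => hs _ fun j => by
    rw [c _ (hp i).1 _ (hp j).1, commute_of_mem (h i j) hS, sub_self]
  have h2 := hs (star ((S * T - T * S) * f)) fun i => by
    rw [← (hp i).2, ← star_mul, ← mul_assoc, h1, star_zero]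
  have h3 := star_eq_zero_mul h2
  rwa [star_star, sf, ← mul_assoc, c _ hf _ hf, hT, sub_eq_zero] at h3

theorem Gen.of_countable {ι : Type*} [Countable ι] {e h : K →L[ℂ] K} (q : ι → K →L[ℂ] K)
    (q1 : ∀ n, q n ∈ M ∧ IsStarProjection (q n) ∧ e * q n = q n) (q2 : ∀ m n, Commute (q m) (q n))
    (h1 : h ∈ M) (h2 : star h = h) (h3 : e * h = h)
    (h4 : ∀ N : VonNeumannAlgebra K, e ∈ N → (∀ n, q n ∈ N) → h ∈ N →
      ∀ x ∈ M, e * x * e = x → x ∈ N) : Gen M e := by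
  obtain ⟨f, hf⟩ := exists_surjective_nat (Option ι)
  refine ⟨fun n => (f n).elim 0 q, h, fun n => ?_, fun m n => ?_, h1, h2, h3,
    fun N a b => h4 N a fun i => ?_⟩
  · beta_reduce
    cases f n
    · exact ⟨zero_mem _, .zero _, mul_zero _⟩
    · exact q1 _
  · beta_reduce
    cases f m <;> cases f n <;> simp [q2]
  · obtain ⟨n, hn⟩ := hf (some i)
    simpa [hn] using b n

theorem gen_copies [TopologicalSpace.SeparableSpace K] {e : K →L[ℂ] K}
    (hep : IsStarProjection e) (he0 : e ≠ 0) (hc : Copies M e) :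
    ∃ f ∈ M, IsStarProjection f ∧ f ≠ 0 ∧ Gen M f ∧
      ∀ y : K →L[ℂ] K, (∀ x ∈ M, y * x * e = 0) → y * f = 0 := by
  obtain ⟨s, s1, s2, s3⟩ := hc
  have ee := hep.isIdempotentElem.eq
  have se : ∀ j, s j * e = s j := fun j => by
    rw [← sub_eq_zero, ← CStarRing.star_mul_self_eq_zero_iff]
    simp [mul_sub, sub_mul, hep.isSelfAdjoint.star_eq, mul_assoc, ← mul_assoc (star (s j)), s2, ee]
  have es : ∀ j x, e * (star (s j) * x) = star (s j) * x := fun j x => by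
    rw [← mul_assoc, ← hep.isSelfAdjoint.star_eq, ← star_mul, se]
  have se' : ∀ j x, s j * (e * x) = s j * x := fun j x => by rw [← mul_assoc, se]
  have o : ∀ i j x, star (s i) * (s j * x) = if i = j then e * x else 0 := fun i j x => by
    rw [← mul_assoc]
    split_ifs with c
    · rw [c, s2]
    · rw [s3 i j c, zero_mul]
  have pp : ∀ j, IsStarProjection (s j * star (s j)) := fun j =>
    pi_fin (by rw [mul_assoc, s2, se])
  obtain ⟨f, f1, f2, f3, f4⟩ := exists_sup s s1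
  obtain ⟨V, hV, hN⟩ := exists_dense (mul_mem (s1 0) (star_mem (s1 0))) (pp 0)
  have V1 := fun n => (pp 0).mul_right_and_mul_left_of_nonneg_of_le (hV n).2.1 (hV n).2.2
  have Vs := fun n => (hV n).2.1.isSelfAdjoint.star_eq
  obtain ⟨x, hx⟩ : ∃ x : ℕ → K →L[ℂ] K, ∀ j,
    x j = s (j + 1) * star (s 0) * (V j + (1 : ℝ) • (s 0 * star (s 0))) := ⟨_, fun _ => rfl⟩
  have x1 : ∀ j, x j * (s 0 * star (s 0)) = x j := fun j => by
    rw [hx, mul_assoc, add_mul, (V1 j).1, one_smul, (pp 0).isIdempotentElem.eq]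
  have x2 : ∀ j, star (x j) * (s 0 * star (s 0)) = 0 := fun j => by
    simp [hx, mul_assoc, o]
  have x3 : ∀ j, f * star (x j) = star (x j) := fun j => by
    rw [← x1, star_mul, (pp 0).isSelfAdjoint.star_eq, ← mul_assoc, ← mul_assoc, f3]
  obtain ⟨h, h1, h2, h3, h4⟩ := exists_code (M := M) (fun j => x j + star (x j)) fun j => by
    have : x j ∈ M := by
      rw [hx, one_smul]
      exact mul_mem (mul_mem (s1 _) (star_mem (s1 _)))
        (add_mem (hV j).1 (mul_mem (s1 _) (star_mem (s1 _))))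
    exact ⟨add_mem this (star_mem this), by simp [add_comm]⟩
  refine ⟨f, f1, f2, fun c => he0 ?_, ⟨fun n => s n * star (s n), h,
    fun n => ⟨mul_mem (s1 _) (star_mem (s1 _)), pp n, by rw [← mul_assoc, f3]⟩, fun m n => ?_, h1,
    h2, h3 f fun j => by rw [mul_add, x3, hx, ← mul_assoc, ← mul_assoc, f3],
    fun N fN pN hN' T T1 T2 => ?_⟩, fun y hy => f4 y fun j => by
      rw [← se, ← mul_assoc, hy _ (s1 j)]⟩
  · rw [← s2 0, ← f3, c, zero_mul, mul_zero]
  · by_cases c : m = n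
    · rw [c]
    · simp [Commute, SemiconjBy, mul_assoc, o, c, Ne.symm c]
  have xN : ∀ j, x j ∈ N := fun j => by
    obtain ⟨c, -, hc⟩ := h4 j
    have := vn_smul_mem c (mul_mem (mul_mem (pN (j + 1)) hN') (pN 0))
    rw [hc _ _ fun i hi => by
      rw [mul_assoc, add_mul, x1, x2, add_zero, hx]
      simp [mul_assoc, o, Ne.symm hi], mul_assoc, add_mul, x1, x2, add_zero] at this
    convert this using 1
    simp [hx, mul_assoc, o, es]
  have uN : ∀ j, s j * star (s 0) ∈ N := by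
    rintro (_ | j)
    · exact pN 0
    have := polar_mem (P := N.toStarSubalgebra) (vn_isClosed N) one_pos
      (V := s (j + 1) * star (s 0)) (by simp [mul_assoc, o, es, se']) (pp 0) (pN 0) (hV j).2.1
      (V1 j).2 (hx j ▸ xN j)
    rwa [mul_assoc, ← mul_assoc (star _), s2, ← mul_one (star (s 0)), es, mul_one] at this
  have VN : ∀ j, V j ∈ N := fun j => by
    have := sub_mem (mul_mem (star_mem (uN (j + 1))) (xN j)) (pN 0)
    convert this using 1
    have := (V1 j).2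
    rw [mul_assoc] at this
    simp [hx, mul_assoc, o, es, se', mul_add, this]
  refine mem_of_blocks (fun i => ⟨pN i, (pp i).isSelfAdjoint.star_eq⟩) fN f2.isSelfAdjoint.star_eq
    (fun y hy => f4 y fun i => by rw [← se, ← s2 i, ← mul_assoc (s i), ← mul_assoc, hy, zero_mul])
    T2 fun i j => ?_
  have := mul_mem (mul_mem (uN i) (hN N VN (star (s i * star (s 0)) * T * (s j * star (s 0)))
    (mul_mem (mul_mem (star_mem (mul_mem (s1 _) (star_mem (s1 _)))) T1)
      (mul_mem (s1 _) (star_mem (s1 _)))) (by simp [mul_assoc, o, es, se']))) (star_mem (uN j))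
  convert this using 1
  simp [mul_assoc, o, es, se']

theorem countable_orth [TopologicalSpace.SeparableSpace K] {ι : Type*} (v : ι → K →L[ℂ] K)
    (h0 : ∀ i, v i ≠ 0) (h : Pairwise fun i j => star (v i) * v j = 0) : Countable ι := by
  have : ∀ i, ∃ z, ‖v i z‖ = 1 := fun i => by
    obtain ⟨z, hz⟩ : ∃ z, v i z ≠ 0 := by
      by_contra! c
      exact h0 i (ContinuousLinearMap.ext c)
    exact ⟨(‖v i z‖ : ℂ)⁻¹ • z, by rw [map_smul]; exact norm_smul_inv_norm hz⟩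
  choose z hz using this
  refine Pairwise.countable_of_isOpen_disjoint (s := fun i => Metric.ball (v i (z i)) (1 / 2))
    (fun i j hij => Metric.ball_disjoint_ball ?_) (fun _ => Metric.isOpen_ball)
    fun _ => Metric.nonempty_ball.2 (by norm_num)
  have a : inner ℂ (v i (z i)) (v j (z j)) = 0 := by
    rw [← inner_star_right, ← mul_apply_eq_comp, h hij]
    simp
  have b := norm_sub_sq (𝕜 := ℂ) (v i (z i)) (v j (z j))
  rw [a, hz, hz] at b
  rw [dist_eq_norm]
  refine (pow_le_pow_iff_left₀ (by norm_num) (norm_nonneg _) two_ne_zero).1 ?_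
  rw [b]
  norm_num

theorem exists_family
    (hloc : ∀ p ∈ M, IsStarProjection p → p ≠ 0 → ∃ f ∈ M, IsStarProjection f ∧ f ≠ 0 ∧ Gen M f ∧
      ∀ y : K →L[ℂ] K, (∀ x ∈ M, y * x * p = 0) → y * f = 0) :
    ∃ F : Set ((K →L[ℂ] K) × (K →L[ℂ] K)),
      (∀ p ∈ F, p.1 ∈ M ∧ IsStarProjection p.1 ∧ Gen M p.1 ∧ p.2 ∈ M ∧
        p.2 * star p.2 * p.2 = p.2 ∧ p.2 * p.1 = p.2 ∧ p.2 ≠ 0 ∧ (p.1, p.1) ∈ F) ∧
      (F.Pairwise fun p q => star p.2 * q.2 = 0 ∧ (p.1 ≠ q.1 → ∀ x ∈ M, p.1 * x * q.1 = 0)) ∧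
      ∀ y, (∀ p ∈ F, y * p.2 = 0) → y = 0 := by
  obtain ⟨F, ⟨F1, F2⟩, F3⟩ := zorn_subset {F : Set ((K →L[ℂ] K) × (K →L[ℂ] K)) |
    (∀ p ∈ F, p.1 ∈ M ∧ IsStarProjection p.1 ∧ Gen M p.1 ∧ p.2 ∈ M ∧
        p.2 * star p.2 * p.2 = p.2 ∧ p.2 * p.1 = p.2 ∧ p.2 ≠ 0 ∧ (p.1, p.1) ∈ F) ∧
      F.Pairwise fun p q => star p.2 * q.2 = 0 ∧ (p.1 ≠ q.1 → ∀ x ∈ M, p.1 * x * q.1 = 0)}
    fun c hc ch => ⟨⋃₀ c, ⟨fun p ⟨s, a, b⟩ => by
      obtain ⟨a1, a2, a3, a4, a5, a6, a7, a8⟩ := (hc a).1 p b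
      exact ⟨a1, a2, a3, a4, a5, a6, a7, s, a, a8⟩,
      (Set.pairwise_sUnion ch.directedOn).2 fun s a => (hc a).2⟩,
      fun s a => Set.subset_sUnion_of_mem a⟩
  obtain ⟨f, fM, hf, fv, f4⟩ := exists_sup (M := M) (fun p : F => p.1.2) fun p => (F1 _ p.2).2.2.2.1
  suffices f = 1 from ⟨F, F1, F2, fun y hy => by simpa [this] using f4 y fun p => hy _ p.2⟩
  have k : ∀ e w, e ∈ M → IsStarProjection e → Gen M e → w ∈ M → w * star w * w = w → w * e = w →
      (∀ p ∈ F, star p.2 * w = 0) → (∀ p ∈ F, p.1 ≠ e → ∀ x ∈ M, p.1 * x * e = 0) →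
      (e, e) ∈ insert (e, w) F → w = 0 := fun e w a1 a2 a3 a4 a5 a6 o a8 a9 => by
    by_contra w0
    have := F3 (y := insert (e, w) F) ⟨Set.forall_mem_insert.2 ⟨⟨a1, a2, a3, a4, a5, a6, w0, a9⟩,
      fun p a => by
        obtain ⟨a1, a2, a3, a4, a5, a6, a7, a8⟩ := F1 p a
        exact ⟨a1, a2, a3, a4, a5, a6, a7, .inr a8⟩⟩,
      F2.insert fun p a _ => ⟨⟨by simpa using star_eq_zero_mul (o p a), fun n x hx => by
        simpa [a2.isSelfAdjoint.star_eq, (F1 p a).2.1.isSelfAdjoint.star_eq, mul_assoc] using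
          star_eq_zero_mul (a8 p a n.symm _ (star_mem hx))⟩, o p a, a8 p a⟩⟩
      (Set.subset_insert _ _) (Set.mem_insert _ _)
    exact w0 (by rw [← a5, mul_assoc, o _ this, mul_zero])
  by_contra n
  by_cases y : ∃ p ∈ F, ∃ x ∈ M, (1 - f) * x * p.1 ≠ 0
  · obtain ⟨p, a, x, b, d⟩ := y
    obtain ⟨a1, a2, a3, -, -, -, -, a8⟩ := F1 p a
    obtain ⟨w, w1, w2, w3, w4⟩ := polar_piece (1 - f) p.1 _ hf.one_sub a2
      (mul_mem (mul_mem (sub_mem (one_mem M) fM) b) a1) (by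
        rw [← mul_assoc, ← mul_assoc, hf.one_sub.1.eq, mul_assoc, a2.1.eq]) d
    refine w2 (k p.1 w a1 a2 a3 w1 w3 (corner_right a2.1 w4) (fun q g => ?_)
      (fun q g n => (F2 g a fun z => n (congrArg _ z)).2 n) (.inr a8))
    rw [← corner_left hf.one_sub.1 w4, ← fv ⟨q, g⟩, star_mul, hf.isSelfAdjoint.star_eq, mul_assoc,
      ← mul_assoc f, mul_sub, hf.1.eq, mul_one, sub_self, zero_mul, mul_zero]
  push Not at y
  obtain ⟨e, a1, a2, a3, a4, a5⟩ :=
    hloc _ (sub_mem (one_mem M) fM) hf.one_sub (sub_ne_zero.2 (Ne.symm n))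
  have z : ∀ p ∈ F, ∀ x ∈ M, p.1 * x * e = 0 := fun p a x hx => a5 _ fun x' hx' => by
    have := star_eq_zero_mul (y p a _ (star_mem (mul_mem hx hx')))
    rwa [star_mul, star_star, (F1 p a).2.1.isSelfAdjoint.star_eq, hf.one_sub.isSelfAdjoint.star_eq,
      ← mul_assoc, ← mul_assoc] at this
  refine a3 (k e e a1 a2 a4 a1 (pi_of_proj a2) a2.1 (fun p a => ?_) (fun p a _ => z p a) (.inl rfl))
  rw [← (F1 p a).2.2.2.2.2.1, star_mul, (F1 p a).2.1.isSelfAdjoint.star_eq,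
    z p a _ (star_mem (F1 p a).2.2.2.1)]

theorem gen_one [TopologicalSpace.SeparableSpace K]
    (hloc : ∀ p ∈ M, IsStarProjection p → p ≠ 0 → ∃ f ∈ M, IsStarProjection f ∧ f ≠ 0 ∧ Gen M f ∧
      ∀ y : K →L[ℂ] K, (∀ x ∈ M, y * x * p = 0) → y * f = 0) : Gen M 1 := by
  classical
  obtain ⟨F, F1, F2, F3⟩ := exists_family hloc
  have : Countable F := countable_orth (fun p : F => p.1.2) (fun p => (F1 _ p.2).2.2.2.2.2.2.1)
    fun p q n => (F2 p.2 q.2 fun z => n (Subtype.ext z)).1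
  choose! q h q1 q2 h1 h2 h3 h4 using fun e (he : Gen M e) => he
  have G := fun p : F => (F1 _ p.2).2.2.1
  have es := fun p : F => (F1 _ p.2).2.1.isSelfAdjoint.star_eq
  have ee := fun p : F => (F1 _ p.2).2.1.isIdempotentElem.eq
  have ve := fun p : F => (F1 _ p.2).2.2.2.2.2.1
  have vM := fun p : F => (F1 _ p.2).2.2.2.1
  have pp := fun p : F => pi_fin (F1 _ p.2).2.2.2.2.1
  have ev : ∀ p : F, p.1.1 * star p.1.2 = star p.1.2 := fun p => by rw [← es, ← star_mul, ve]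
  have o : ∀ p q : F, p ≠ q → star p.1.2 * q.1.2 = 0 := fun p q n =>
    (F2 p.2 q.2 fun z => n (Subtype.ext z)).1
  let b : F → F := fun p => ⟨(p.1.1, p.1.1), (F1 _ p.2).2.2.2.2.2.2.2⟩
  have ob : ∀ p q : F, p.1.2 ≠ p.1.1 → star p.1.2 * q.1.1 = 0 := fun p q n =>
    o p (b q) fun z => n (by rw [z])
  obtain ⟨H, H1, H2, -, H4⟩ := exists_code (M := M)
    (fun p : F => if p.1.2 = p.1.1 then h p.1.1 else p.1.2 + star p.1.2) fun p => by
    split_ifs
    · exact ⟨h1 _ (G p), h2 _ (G p)⟩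
    · exact ⟨add_mem (vM p) (star_mem (vM p)), by simp [add_comm]⟩
  let Q : F × Option ℕ → K →L[ℂ] K := fun x => x.2.elim (x.1.1.2 * star x.1.1.2) (q x.1.1.1)
  let B : F × Option ℕ → F := fun x => x.2.elim x.1 fun _ => b x.1
  have Q1 : ∀ x, Q x ∈ M ∧ IsStarProjection (Q x) ∧
      (B x).1.2 * star (B x).1.2 * Q x = Q x := by
    rintro ⟨p, _ | n⟩
    · exact ⟨mul_mem (vM p) (star_mem (vM p)), pp p, (pp p).1⟩
    · refine ⟨(q1 _ (G p) n).1, (q1 _ (G p) n).2.1, ?_⟩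
      change p.1.1 * star p.1.1 * q p.1.1 n = q p.1.1 n
      rw [es, ee, (q1 _ (G p) n).2.2]
  have Q2 : ∀ x, Q x * ((B x).1.2 * star (B x).1.2) = Q x := fun x =>
    proj_mul_symm (pp _).2 (Q1 x).2.1.2 (Q1 x).2.1.2 (Q1 x).2.2
  have Q3 : ∀ x y, B x ≠ B y → Q x * Q y = 0 := fun x y n => by
    rw [← Q2 x, ← (Q1 y).2.2]
    simp only [mul_assoc]
    rw [← mul_assoc (star _), o _ _ n, zero_mul, mul_zero, mul_zero]
  refine Gen.of_countable Q (fun x => ⟨(Q1 x).1, (Q1 x).2.1, one_mul _⟩) (fun x y => ?_) H1 H2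
    (one_mul _) fun N _ QN HN T T1 _ => ?_
  · by_cases c : B x = B y
    · obtain ⟨p, _ | n⟩ := x
      · have c' : p = B y := c
        exact (c' ▸ (Q1 y).2.2).trans (c' ▸ (Q2 y).symm)
      obtain ⟨r, _ | m⟩ := y
      · have c' : B (p, some n) = r := c
        exact (c' ▸ (Q2 _)).trans (c' ▸ (Q1 _).2.2.symm)
      have c' : p.1.1 = r.1.1 := (congrArg (fun z : F => z.1.1) c :)
      change Commute (q p.1.1 n) (q r.1.1 m)
      rw [c']
      exact q2 _ (G r) _ _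
    · exact (Q3 x y c).trans (Q3 y x (Ne.symm c)).symm
  have eN : ∀ p : F, p.1.1 ∈ N := fun p => by
    have : p.1.1 * star p.1.1 ∈ N := QN (b p, none)
    rwa [es, ee] at this
  have hN : ∀ p : F, h p.1.1 ∈ N := fun p => by
    obtain ⟨c, -, hc⟩ := H4 (b p)
    have := vn_smul_mem c (mul_mem (mul_mem (eN p) HN) (eN p))
    rw [hc _ _ fun r hr => ?_, if_pos rfl] at this
    · rwa [h3 _ (G p), proj_mul_symm (es p) (h2 _ (G p)) (h2 _ (G p)) (h3 _ (G p))] at this
    have a := o _ _ hr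
    have a' := o _ _ hr.symm
    simp only [b, es] at a a'
    split_ifs with d
    · rw [← h3 _ (G r), ← mul_assoc, ← d, a', zero_mul, zero_mul]
    · rw [mul_add, a', zero_add, mul_assoc, a, mul_zero]
  have vN : ∀ p : F, p.1.2 ∈ N := fun p => by
    by_cases d : p.1.2 = p.1.1
    · exact d ▸ eN p
    obtain ⟨c, -, hc⟩ := H4 p
    have := vn_smul_mem c (mul_mem (mul_mem (QN (p, none)) HN) (eN p))
    change c • (p.1.2 * star p.1.2 * H * p.1.1) ∈ N at this
    rw [hc _ _ fun r hr => ?_, if_neg d] at this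
    · rwa [mul_add, (F1 _ p.2).2.2.2.2.1, add_mul, ve, mul_assoc, ob p p d, mul_zero,
        add_zero] at this
    split_ifs with d'
    · rw [← h3 _ (G r), mul_assoc p.1.2, ← mul_assoc (star _), ob p r d]
      simp
    · rw [mul_add, mul_assoc p.1.2, o _ _ hr.symm, ← ev r, mul_assoc p.1.2, ← mul_assoc (star _),
        ob p r d]
      simp
  refine mem_of_blocks (p := fun p : F => p.1.2 * star p.1.2) (f := 1)
    (fun p => ⟨QN (p, none), (pp p).2⟩) (one_mem _) (star_one _) (fun y hy => ?_) (by simp)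
    fun p r => ?_
  · rw [mul_one]
    exact F3 y fun p a => by rw [← (F1 p a).2.2.2.2.1, ← mul_assoc, hy ⟨p, a⟩, zero_mul]
  have xM := mul_mem (mul_mem (star_mem (vM p)) T1) (vM r)
  have x1 : p.1.1 * (star p.1.2 * T * r.1.2) * r.1.1 = star p.1.2 * T * r.1.2 := by
    rw [← mul_assoc, ← mul_assoc, ev, mul_assoc, ve]
  have xN : star p.1.2 * T * r.1.2 ∈ N := by
    by_cases d : p.1.1 = r.1.1
    · exact h4 _ (G p) N (eN p) (fun n => QN (p, some n)) (hN p) _ xM (by rwa [← d] at x1)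
    · rw [← x1, (F2 p.2 r.2 fun z => d (by rw [z])).2 d _ xM]
      exact zero_mem _
  simpa only [mul_assoc] using mul_mem (mul_mem (vN p) xN) (star_mem (vN r))

end Vale.Agent.P085
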