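import Vale.Agent.P085.Defs

/-! Polar decomposition with a unitary in the presence of a faithful trace. -/

namespace Vale.Agent.P085

open Vale.Agent.P104 Filter Topology Finset
open scoped InnerProductSpace

variable {K : Type*} [NormedAddCommGroup K] [InnerProductSpace ℂ K] [CompleteSpace K]
  {M : VonNeumannAlgebra K}

theorem polar_piece' (a b x : K →L[ℂ] K) (ha : IsStarProjection a) (hb : IsStarProjection b)
    (hx : x ∈ M) (hab : a * x * b = x) (hx0 : x ≠ 0) :
    ∃ w ∈ M, w ≠ 0 ∧ w * star w * w = w ∧ a * w * b = w ∧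
      w * star w * x = x * (star w * w) ∧ 0 ≤ star w * x := by
  wlog hn : ‖x‖ = 1 generalizing x
  · have hpos : 0 < ‖x‖ := norm_pos_iff.2 hx0
    obtain ⟨w, w1, w2, w3, w4, w5, w6⟩ := this (((‖x‖⁻¹ : ℝ) : ℂ) • x) (vn_smul_mem _ hx)
      (by rw [mul_smul_comm, smul_mul_assoc, hab])
      (smul_ne_zero (by exact_mod_cast (inv_pos.2 hpos).ne') hx0)
      (by rw [norm_smul, Complex.norm_real, norm_inv, norm_norm, inv_mul_cancel₀ hpos.ne'])
    refine ⟨w, w1, w2, w3, w4, ?_, ?_⟩
    · rw [mul_smul_comm, smul_mul_assoc] at w5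
      exact smul_right_injective _ (by exact_mod_cast (inv_pos.2 hpos).ne') w5
    · have := smul_nonneg hpos.le w6
      rwa [mul_smul_comm, Complex.coe_smul, smul_inv_smul₀ hpos.ne'] at this
  have hxb : x * b = x := by
    rw [← hab, mul_assoc, hb.isIdempotentElem.eq]
  have hax : a * x = x := by
    rw [← hab, ← mul_assoc, ← mul_assoc, ha.isIdempotentElem.eq]
  set h := star x * x with hh
  have hM : h ∈ M := mul_mem (star_mem hx) hx
  have h0 : 0 ≤ h := star_mul_self_nonneg x
  have hn1 : ‖h‖ = 1 := by rw [hh, CStarRing.norm_star_mul_self, hn, one_mul]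
  have h1 : h ≤ b := by
    have l1 : h ≤ 1 := (CStarAlgebra.norm_le_one_iff_of_nonneg h h0).1 hn1.le
    have l2 := star_left_conjugate_le_conjugate l1 b
    have e : star b * h * b = h := by
      rw [hh, ← mul_assoc, ← star_mul, mul_assoc, hxb]
    rwa [e, mul_one, hb.isSelfAdjoint.star_eq, hb.isIdempotentElem.eq] at l2
  obtain ⟨E, hEM, hE, h2, h3, h4, h5, -⟩ := bis_mem hM hb h0 h1
  have hEE : E * E = E := hE.isIdempotentElem
  have hE0 : E ≠ 0 := by
    rintro rfl
    rw [sub_zero] at h3 h4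
    have := (CStarAlgebra.norm_le_one_iff_of_nonneg _ h3).2 (h4.trans hb.le_one)
    rw [norm_smul, hn1] at this
    norm_num at this
  set k := (2 : ℂ) • (h * E) + (1 - E) with hk
  have hkM : k ∈ M := add_mem (vn_smul_mem _ (mul_mem hM hEM)) (sub_mem (one_mem _) hEM)
  have hk1 : 1 ≤ k := by
    have := star_left_conjugate_nonneg h3 E
    rw [hE.isSelfAdjoint.star_eq, mul_sub, sub_mul, hEE, hEE, mul_smul_comm, smul_mul_assoc,
      ← h5.eq, mul_assoc, hEE] at this
    rw [← sub_nonneg]
    have e : k - 1 = (2 : ℂ) • (h * E) - E := by rw [hk]; abel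
    rwa [e]
  have hk0 : 0 ≤ k := zero_le_one.trans hk1
  have hku : IsUnit k := CStarAlgebra.isUnit_of_le 1 hk1 isStrictlyPositive_one
  set r := CFC.sqrt k with hr
  have hrr : r * r = k := CFC.sqrt_mul_sqrt_self k hk0
  have hr0 : 0 ≤ r := CFC.sqrt_nonneg k
  have hru : IsUnit r := ((Commute.refl r).isUnit_mul_iff.1 (hrr ▸ hku)).1
  have hcr : ∀ y : K →L[ℂ] K, Commute k y → Commute r y := by
    intro y hy
    rw [hr, CFC.sqrt_eq_cfc]
    exact hy.cfc_nnreal _
  obtain ⟨u, hu⟩ := hru
  set s : K →L[ℂ] K := ↑u⁻¹ with hs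
  have hcs : ∀ y : K →L[ℂ] K, Commute k y → Commute s y := by
    intro y hy
    have := hcr y hy
    rw [← hu] at this
    exact this.units_inv_left
  have hsM : s ∈ M := mem_of_commute fun y hy => (hcs y (commute_of_mem hkM hy)).symm.eq
  have hsr : s * r = 1 := by rw [← hu, hs, Units.inv_mul]
  have hrs : r * s = 1 := by rw [← hu, hs, Units.mul_inv]
  have hss : star s = s := by
    have e : star s * r = 1 := by
      have := congrArg star hrs
      rwa [star_mul, hr0.isSelfAdjoint.star_eq, star_one] at this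
    calc star s = star s * (r * s) := by rw [hrs, mul_one]
      _ = s := by rw [← mul_assoc, e, one_mul]
  have hkE : Commute k E := by
    refine Commute.add_left ((h5.mul_left (Commute.refl E)).smul_left _) ?_
    exact (Commute.one_left E).sub_left (Commute.refl E)
  have hsE : s * E = E * s := (hcs E hkE).eq
  have hkE' : k * E = (2 : ℂ) • (h * E) := by
    rw [hk, add_mul, smul_mul_assoc, mul_assoc, hEE, sub_mul, one_mul, hEE, sub_self, add_zero]
  set c : ℂ := ((Real.sqrt 2 : ℝ) : ℂ) with hc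
  have hcc : c * c = 2 := by
    rw [hc, ← Complex.ofReal_mul, Real.mul_self_sqrt (by norm_num)]
    norm_num
  have hcs' : star c = c := Complex.conj_ofReal _
  have hww : star (c • (x * E * s)) * (c • (x * E * s)) = E := by
    rw [star_smul, hcs', smul_mul_assoc, mul_smul_comm, smul_smul, hcc, star_mul, star_mul, hss,
      hE.isSelfAdjoint.star_eq]
    have e1 : s * (E * star x) * (x * E * s) = s * (E * (h * E)) * s := by
      rw [hh]; simp only [mul_assoc]
    rw [e1, ← smul_mul_assoc, ← mul_smul_comm, ← mul_smul_comm, ← hkE', ← hkE.eq.symm,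
      ← mul_assoc E, hEE, ← hrr, ← mul_assoc, hsE]
    calc E * s * (r * r) * s = E * (s * r) * (r * s) := by simp only [mul_assoc]
      _ = E := by rw [hsr, hrs, mul_one, mul_one]
  have hwx : star (c • (x * E * s)) * x = c • (s * (h * E)) := by
    rw [star_smul, hcs', smul_mul_assoc, star_mul, star_mul, hss, hE.isSelfAdjoint.star_eq, h5.eq,
      hh]
    simp only [mul_assoc]
  refine ⟨c • (x * E * s), vn_smul_mem _ (mul_mem (mul_mem hx hEM) hsM), ?_, ?_, ?_, ?_, ?_⟩
  · intro h0'
    rw [h0', mul_zero] at hww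
    exact hE0 hww.symm
  · rw [mul_assoc, hww, smul_mul_assoc, mul_assoc, hsE, ← mul_assoc, mul_assoc x, hEE]
  · have hEb : E * b = E := by
      have := congrArg star h2
      rwa [star_mul, hE.isSelfAdjoint.star_eq, hb.isSelfAdjoint.star_eq] at this
    rw [mul_smul_comm, smul_mul_assoc]
    congr 1
    calc a * (x * E * s) * b = (a * x) * (E * s) * b := by simp only [mul_assoc]
      _ = x * s * (E * b) := by rw [hax, ← hsE]; simp only [mul_assoc]
      _ = x * E * s := by rw [hEb, mul_assoc, hsE, mul_assoc]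
  · rw [mul_assoc, hwx, hww, smul_mul_smul_comm, hcc, ← mul_smul_comm, ← mul_smul_comm, ← hkE',
      ← hrr]
    calc x * E * s * (s * (r * r * E)) = x * E * (s * (s * r) * r) * E := by simp only [mul_assoc]
      _ = x * E := by rw [hsr, mul_one, hsr, mul_one, mul_assoc, hEE]
  · have s0 : 0 ≤ s := by
      have := star_left_conjugate_nonneg hr0 s
      rwa [hss, hsr, one_mul] at this
    have hkh : Commute k h := (((Commute.refl h).mul_left h5.symm).smul_left _).add_left
      ((Commute.one_left h).sub_left h5.symm)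
    rw [hwx, hc, Complex.coe_smul]
    exact smul_nonneg (Real.sqrt_nonneg _) (Commute.mul_nonneg s0
      (Commute.mul_nonneg h0 hE.nonneg h5) ((hcs h hkh).mul_right hsE))

theorem eq_of_limit {ι : Type*} {l : Filter ι} [l.NeBot] {x y : ι → K →L[ℂ] K} {a b : K →L[ℂ] K}
    (h : ∀ᶠ i in l, x i = y i) (hx : ∀ z, Tendsto (fun i => x i z) l (𝓝 (a z)))
    (hy : ∀ z, Tendsto (fun i => y i z) l (𝓝 (b z))) : a = b :=
  ContinuousLinearMap.ext fun z =>
    tendsto_nhds_unique_of_eventuallyEq (hx z) (hy z) (h.mono fun i hi => by simp only [hi])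

theorem unitary_polar {N : VonNeumannAlgebra K} {e : K →L[ℂ] K} {τ : (K →L[ℂ] K) →ₗ[ℂ] ℂ}
    (hτ : IsTrace N e τ) (hf : ∀ p ∈ N, IsStarProjection p → e * p = p → τ p = 0 → p = 0)
    {g c : K →L[ℂ] K} (hg : g ∈ N) (hgp : IsStarProjection g) (heg : e * g = g) (hc : c ∈ N)
    (h1 : g * c = c) (h2 : c * g = c) :
    ∃ u ∈ N, u ∈ unitary (K →L[ℂ] K) ∧ Commute u g ∧ ∃ s ∈ N, star u * c = star s * s := by
  have gs := hgp.isSelfAdjoint.star_eq
  have gg := hgp.isIdempotentElem.eq
  obtain ⟨v, ⟨vN, v1, v2, v3, v4⟩, hv⟩ := zorn_pi (M := N) {v | v ∈ N ∧ v * star v * v = v ∧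
      g * v * g = v ∧ v * star v * c = c * (star v * v) ∧ 0 ≤ star v * c}
    (fun w hw => ⟨hw.1, hw.2.1⟩) ⟨zero_mem _, by simp⟩ fun l _ w hl w1 w2 t1 t2 => by
      have b1 : ∀ᶠ v in l, ‖v‖ ≤ 1 := hl.mono fun v hv => pi_norm_le hv.2.1
      have b2 : ∀ᶠ v in l, ‖star v‖ ≤ 1 := by simpa only [norm_star] using b1
      refine ⟨w1, w2, corner_of_limit (hl.mono fun v hv => hv.2.2.1) t1,
        eq_of_limit (hl.mono fun v hv => hv.2.2.2.1)
          (fun z => tendsto_apply_of_bdd b1 t1 (t2 (c z)))
          (fun z => (c.continuous.tendsto _).comp (tendsto_apply_of_bdd b2 t2 (t1 z))), ?_⟩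
      rw [ContinuousLinearMap.nonneg_iff_isPositive, ContinuousLinearMap.isPositive_iff_complex]
      intro z
      have t : Tendsto (fun v : K →L[ℂ] K => ⟪(star v * c) z, z⟫_ℂ) l (𝓝 ⟪(star w * c) z, z⟫_ℂ) :=
        (t2 (c z)).inner tendsto_const_nhds
      have p := hl.mono fun v hv => (ContinuousLinearMap.isPositive_iff_complex _).1
        ((ContinuousLinearMap.nonneg_iff_isPositive _).1 hv.2.2.2.2) z
      have tr := (Complex.continuous_re.tendsto _).comp t
      exact ⟨tendsto_nhds_unique_of_eventuallyEq ((Complex.continuous_ofReal.tendsto _).comp tr) t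
        (p.mono fun v hv => hv.1), ge_of_tendsto tr (p.mono fun v hv => hv.2)⟩
  have gv := corner_left gg v2
  have vg := corner_right gg v2
  have gv' : g * star v = star v := by rw [← gs, ← star_mul, vg]
  have vg' : star v * g = star v := by rw [← gs, ← star_mul, gv]
  have v1' := pi_star' v1
  have pa : IsStarProjection (g - v * star v) := (pi_fin v1).sub_of_mul_eq_right hgp
    (by rw [← mul_assoc, gv])
  have pb : IsStarProjection (g - star v * v) := (pi_init v1).sub_of_mul_eq_right hgp
    (by rw [← mul_assoc, gv'])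
  have aN : g - v * star v ∈ N := sub_mem hg (mul_mem vN (star_mem vN))
  have bN : g - star v * v ∈ N := sub_mem hg (mul_mem (star_mem vN) vN)
  have ga : g * (g - v * star v) = g - v * star v := by rw [mul_sub, gg, ← mul_assoc, gv]
  have gb : g * (g - star v * v) = g - star v * v := by rw [mul_sub, gg, ← mul_assoc, gv']
  have bg : (g - star v * v) * g = g - star v * v := by rw [sub_mul, gg, mul_assoc, vg]
  have va : star v * (g - v * star v) = 0 := by rw [mul_sub, vg', ← mul_assoc, v1', sub_self]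
  have bv : (g - star v * v) * star v = 0 := by rw [sub_mul, gv', v1', sub_self]
  have ac : (g - v * star v) * c = c * (g - star v * v) := by rw [sub_mul, mul_sub, h1, h2, v3]
  have key : ∀ w ∈ N, w * star w * w = w → (g - v * star v) * w * (g - star v * v) = w →
      w * star w * (c * (g - star v * v)) = c * (g - star v * v) * (star w * w) →
      0 ≤ star w * (c * (g - star v * v)) → w = 0 := fun w w1 w2 w3 w4 w5 => by
    have aw := corner_left pa.1 w3
    have wb := corner_right pb.1 w3
    have wa : star w * (g - v * star v) = star w := by rw [← pa.2, ← star_mul, aw]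
    have bw : (g - star v * v) * star w = star w := by rw [← pb.2, ← star_mul, wb]
    have o1 : star v * w = 0 := by rw [← aw, ← mul_assoc, va, zero_mul]
    have o2 : w * star v = 0 := by rw [← wb, mul_assoc, bv, mul_zero]
    have o3 : v * star w = 0 := by simpa using star_eq_zero_mul o2
    have o4 : star w * v = 0 := by simpa using star_eq_zero_mul o1
    rw [← ac, ← mul_assoc, wa] at w5
    rw [mul_assoc c, ← mul_assoc _ (star w), bw, ← ac, mul_assoc, ← mul_assoc (star w), wa,
      ← mul_assoc] at w4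
    refine hv w w2 o1 o3 ⟨add_mem vN w1, pi_add v1 w2 o1 o3, ?_, ?_, ?_⟩
    · rw [mul_add, add_mul, v2, ← w3, ← mul_assoc, ← mul_assoc, ga, mul_assoc _ _ g, bg]
    · simp only [star_add, mul_add, add_mul, o1, o2, o3, o4, v3, w4, zero_add, add_zero]
    · rw [star_add, add_mul]
      exact add_nonneg v4 w5
  have c0 : c * (g - star v * v) = 0 := by
    by_contra n
    obtain ⟨w, w1, w2, w3, w4, w5, w6⟩ := polar_piece' _ _ _ pa pb (mul_mem hc bN) (by
      rw [mul_assoc, mul_assoc, pb.1.eq, ← ac, ← mul_assoc, pa.1.eq]) n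
    exact w2 (key w w1 w3 w4 w5 w6)
  have z : ∀ x ∈ N, (g - v * star v) * x * (g - star v * v) = 0 := fun x hx => by
    by_contra n
    obtain ⟨w, w1, w2, w3, w4⟩ := polar_piece _ _ _ pa pb (mul_mem (mul_mem aN hx) bN) (by
      rw [← mul_assoc, ← mul_assoc, pa.1.eq, mul_assoc, pb.1.eq]) n
    exact w2 (key w w1 w3 w4 (by simp [c0]) (by simp [c0]))
  have z' : ∀ x ∈ N, (g - star v * v) * x * (g - v * star v) = 0 := fun x hx => by
    simpa [pa.2.star_eq, pb.2.star_eq, mul_assoc] using star_eq_zero_mul (z _ (star_mem hx))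
  generalize ha : g - v * star v = a at *
  have t0 : ∀ p ∈ N, IsStarProjection p → 0 ≤ (τ p).re ∧ (τ p).im = 0 := fun p p1 p2 => by
    simpa [p2.2.star_eq, p2.1.eq] using And.intro (hτ.pos_re p p1) (hτ.pos_im p p1)
  have yN : ∀ k : ℕ, v ^ k * a ∈ N := fun k => mul_mem (pow_mem vN k) aN
  have y1 : ∀ k : ℕ, g * (v ^ k * a) = v ^ k * a := by
    rintro (_ | k)
    · simpa using ga
    · rw [pow_succ', ← mul_assoc, ← mul_assoc, gv]
  have y2 : ∀ k : ℕ, star v * (v * (v ^ k * a)) = v ^ k * a := fun k => by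
    have := z' _ (pow_mem vN k)
    rw [mul_assoc, sub_mul, y1, sub_eq_zero, mul_assoc] at this
    exact this.symm
  have y3 : ∀ k : ℕ, star (v ^ k * a) * (v ^ k * a) = a := fun k => by
    induction k with
    | zero => simp [pa.2.star_eq, pa.1.eq]
    | succ k ih => rw [pow_succ', mul_assoc, star_mul, mul_assoc, y2, ih]
  have y4 : ∀ k : ℕ, v ^ k * g * star (v ^ k) =
      g - ∑ j ∈ range k, v ^ j * a * star (v ^ j * a) := fun k => by
    induction k with
    | zero => simp
    | succ k ih =>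
      have : v ^ (k + 1) * g * star (v ^ (k + 1)) = v * (v ^ k * g * star (v ^ k)) * star v := by
        rw [pow_succ', star_mul]
        simp only [mul_assoc]
      rw [this, ih, sum_range_succ', mul_sub, sub_mul, vg, mul_sum, sum_mul, pow_zero, one_mul,
        pa.2.star_eq, pa.1.eq, add_comm, ← sub_sub]
      congr 1
      · rw [← ha, sub_sub_cancel]
      · simp only [pow_succ', star_mul, mul_assoc]
  have a0 : a = 0 := by
    refine hf a aN pa (by rw [← ga, ← mul_assoc, heg]) (Complex.ext ?_ (t0 a aN pa).2)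
    refine le_antisymm (not_lt.1 fun n => ?_) (t0 a aN pa).1
    obtain ⟨k, hk⟩ := exists_nat_gt ((τ g).re / (τ a).re)
    have := hτ.pos_re _ (mul_mem hg (star_mem (pow_mem vN k)))
    rw [star_mul, star_star, gs, ← mul_assoc, mul_assoc _ g g, gg, y4, map_sub, map_sum,
      sum_congr rfl fun j _ => by rw [hτ.tr _ (yN j) _ (star_mem (yN j)), y3]] at this
    rw [div_lt_iff₀ n] at hk
    simp at this
    linarith
  have b0 : g - star v * v = 0 := hf _ bN pb (by rw [← gb, ← mul_assoc, heg]) (by
    rw [map_sub, hτ.tr _ (star_mem vN) _ vN, ← map_sub, ha, a0, map_zero])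
  rw [a0, sub_eq_zero] at ha
  rw [sub_eq_zero] at b0
  refine ⟨v + (1 - g), add_mem vN (sub_mem (one_mem _) hg), ⟨?_, ?_⟩, ?_, CFC.sqrt (star v * c),
    mem_of_commute fun y hy => (Commute.cfcₙ_nnreal
      (commute_of_mem (mul_mem (star_mem vN) hc) hy) NNReal.sqrt).symm, ?_⟩
  · simp [gs, mul_add, add_mul, mul_sub, sub_mul, gv, vg', gg, ← b0]
  · simp [gs, mul_add, add_mul, mul_sub, sub_mul, vg, gv', gg, ← ha]
  · simp [Commute, SemiconjBy, mul_add, add_mul, mul_sub, sub_mul, gv, vg, gg]
  · rw [(CFC.sqrt_nonneg (star v * c)).isSelfAdjoint.star_eq, CFC.sqrt_mul_sqrt_self _ v4]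
    simp [gs, add_mul, sub_mul, h1]

end Vale.Agent.P085
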