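import Vale.Agent.P085.Flat0

/-! Estimates for traces. -/

namespace Vale.Agent.P104

open scoped InnerProductSpace ComplexConjugate
open Finset

/-- Truncation to the unit interval. -/
noncomputable def clip (s : ℝ) : ℝ := max (-1) (min 1 s)

@[fun_prop] theorem continuous_clip : Continuous clip := by unfold clip; fun_prop

theorem clip_cases (s : ℝ) :
    (s ≤ -1 ∧ clip s = -1) ∨ (-1 ≤ s ∧ s ≤ 1 ∧ clip s = s) ∨ (1 ≤ s ∧ clip s = 1) := by
  unfold clip
  rcases le_total s (-1) with a | a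
  · exact .inl ⟨a, max_eq_left ((min_le_right _ _).trans a)⟩
  rcases le_total s 1 with b | b
  · exact .inr (.inl ⟨a, b, by rw [min_eq_right b, max_eq_right a]⟩)
  · exact .inr (.inr ⟨b, by rw [min_eq_left b]; norm_num⟩)

theorem abs_clip (s : ℝ) : |clip s| ≤ 1 := by
  rw [abs_le]
  rcases clip_cases s with h | h | h <;> constructor <;> linarith [h.1, h.2]

theorem clip_eq (s : ℝ) : clip s = s * (max 1 |s|)⁻¹ := by
  rcases clip_cases s with ⟨a, h⟩ | ⟨a, b, h⟩ | ⟨a, h⟩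
  · rw [h, abs_of_neg (by linarith), max_eq_right (by linarith)]
    have : s ≠ 0 := by linarith
    field_simp
  · rw [h, max_eq_left (abs_le.2 ⟨a, b⟩), inv_one, mul_one]
  · rw [h, abs_of_pos (by linarith), max_eq_right a, mul_inv_cancel₀ (by linarith)]

theorem clip_ge {κ : ℝ} (hκ : 0 ≤ κ) (s : ℝ) : κ * s ^ 2 - κ ^ 3 * s ^ 4 ≤ clip (κ * s) * s := by
  have e : κ * s ^ 2 - κ ^ 3 * s ^ 4 = κ * s ^ 2 * (1 - (κ * s) ^ 2) := by ring
  have p : 0 ≤ κ * s ^ 2 := by positivity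
  rcases clip_cases (κ * s) with ⟨a, h⟩ | ⟨a, b, h⟩ | ⟨a, h⟩
  · have : s ≤ 0 := by nlinarith
    have : 1 - (κ * s) ^ 2 ≤ 0 := by nlinarith
    rw [h, e]
    nlinarith
  · rw [h, e]
    nlinarith [sq_nonneg (κ * s)]
  · have : 0 ≤ s := by nlinarith
    have : 1 - (κ * s) ^ 2 ≤ 0 := by nlinarith
    rw [h, e]
    nlinarith

variable {A E : Type*} [CStarAlgebra A] [NormedAddCommGroup E] [InnerProductSpace ℂ E]
  {τ : A →ₗ[ℂ] ℂ} {Λ : A →ₗ[ℂ] E}

theorem norm_clip (f : ℝ → ℝ) (q : A) : ‖cfc (fun s => clip (f s)) q‖ ≤ 1 :=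
  norm_cfc_le zero_le_one fun _ _ => abs_clip _

theorem clip_supp {e q : A} (hq : star q = q) (h : e * q = q) : e * cfc clip q = cfc clip q := by
  have hq' : IsSelfAdjoint q := hq
  have : ContinuousOn (fun s : ℝ => (max 1 |s|)⁻¹) (spectrum ℝ q) :=
    (Continuous.inv₀ (by fun_prop) fun s => (lt_max_of_lt_left one_pos).ne').continuousOn
  rw [show clip = fun s => s * (max 1 |s|)⁻¹ from funext clip_eq, cfc_mul _ _ q, cfc_id' ℝ q,
    ← mul_assoc, h]

section Fr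

variable {I : Type*} [Fintype I] [DecidableEq I] {v w : I → A} {g e : A}

theorem Frame.proj (hv : Frame v g e) : IsStarProjection e := by
  simpa using IsStarProjection.one_sub ⟨hv.part.idem none, hv.part.sa none⟩

theorem Frame.proj' (hv : Frame v g e) : IsStarProjection g := ⟨hv.idem, hv.sa⟩

theorem Tr.half' (h : Tr τ Λ) (hs : ∀ x, τ (x * e) = τ x) (hv : Frame v g e) (x : A) :
    ∑ i, ‖Λ (x * v i)‖ ^ 2 = ‖Λ x‖ ^ 2 := by
  rw [h.nsq, ← hs, ← hv.sum, mul_sum, map_sum, Complex.re_sum]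
  refine sum_congr rfl fun i _ => ?_
  rw [h.nsq, star_mul, mul_assoc, h.tr]
  simp only [mul_assoc]

theorem Tr.half (h : Tr τ Λ) (hs : ∀ x, τ (x * e) = τ x) (hv : Frame v g e) (x : A) :
    ∑ i, ‖Λ (star (v i) * x)‖ ^ 2 = ‖Λ x‖ ^ 2 := by
  rw [← h.norm_star x, ← h.half' hs hv]
  exact sum_congr rfl fun i _ => by rw [← h.norm_star, star_mul, star_star]

theorem Tr.parseval (h : Tr τ Λ) (hs : ∀ x, τ (x * e) = τ x) (hv : Frame v g e)
    (hw : Frame w g e) (x : A) : ∑ i, ∑ j, ‖Λ (star (v i) * x * w j)‖ ^ 2 = ‖Λ x‖ ^ 2 := by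
  simp only [h.half' hs hw, h.half hs hv]

theorem Tr.card_mul (h : Tr τ Λ) (hs : ∀ x, τ (x * e) = τ x) (hv : Frame v g e) :
    Fintype.card I * ‖Λ g‖ ^ 2 = ‖Λ 1‖ ^ 2 := by
  rw [← h.half' hs hv 1, sum_congr rfl fun i _ => show _ = ‖Λ g‖ ^ 2 by
    rw [one_mul, h.nsq, h.nsq, hv.orth, if_pos rfl, hv.sa, hv.idem]]
  simp

theorem Frame.entry (hv : Frame v g e) (hw : Frame w g e) (n : I → I → A) (i j : I) :
    star (v i) * (∑ a, ∑ b, v a * n a b * star (w b)) * w j = g * n i j * g := by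
  have o : ∀ a x, star (v i) * (v a * x) = if i = a then g * x else 0 := fun a x => by
    rw [← mul_assoc, hv.orth, ite_mul, zero_mul]
  simp only [mul_sum, sum_mul, mul_assoc, o, hw.orth, mul_ite, mul_zero,
    sum_ite_irrel, sum_const_zero, sum_ite_eq', mem_univ, if_true, sum_ite_eq]

end Fr

theorem Tr.re_inner_star (h : Tr τ Λ) {y : A} (hy : star y = y) (x : A) :
    (⟪Λ y, Λ (star x)⟫_ℂ).re = (⟪Λ y, Λ x⟫_ℂ).re := by
  rw [← inner_conj_symm (Λ y) (Λ x), Complex.conj_re, h.inner, h.inner, hy, h.tr]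

theorem Tr.norm_re (h : Tr τ Λ) (x : A) : ‖Λ ((2 : ℝ)⁻¹ • (x + star x))‖ ≤ ‖Λ x‖ := by
  rw [LinearMap.map_smul_of_tower, norm_smul, map_add]
  have := norm_add_le (Λ x) (Λ (star x))
  rw [h.norm_star] at this
  norm_num
  linarith

variable [PartialOrder A] [StarOrderedRing A]

theorem Tr.re_nonneg (h : Tr τ Λ) {x : A} (hx : 0 ≤ x) : 0 ≤ (τ x).re := by
  obtain ⟨s, rfl⟩ := CStarAlgebra.nonneg_iff_eq_star_mul_self.1 hx
  rw [← h.nsq]
  positivity

theorem Tr.mono (h : Tr τ Λ) {x y : A} (hx : x ≤ y) : (τ x).re ≤ (τ y).re := by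
  simpa using h.re_nonneg (sub_nonneg.2 hx)

theorem Tr.mul_l (h : Tr τ Λ) (x y : A) : ‖Λ (x * y)‖ ≤ ‖x‖ * ‖Λ y‖ := by
  refine (pow_le_pow_iff_left₀ (norm_nonneg _) (by positivity) two_ne_zero).1 ?_
  have := h.mono (conj_le_smul (star_mul_self_le_norm_sq x) y)
  rw [LinearMap.map_smul_of_tower, Complex.smul_re, ← h.nsq] at this
  rw [h.nsq, star_mul, mul_pow]
  simpa [mul_assoc] using this

theorem Tr.mul_r (h : Tr τ Λ) (x y : A) : ‖Λ (x * y)‖ ≤ ‖Λ x‖ * ‖y‖ := by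
  rw [← h.norm_star, star_mul, ← h.norm_star x, ← _root_.norm_star y, mul_comm]
  exact h.mul_l _ _

theorem Tr.le_one (h : Tr τ Λ) (x : A) : ‖Λ x‖ ≤ ‖x‖ * ‖Λ 1‖ := by
  simpa using h.mul_l x 1

theorem Tr.norm_mono (h : Tr τ Λ) {a b : A} (ha : 0 ≤ a) (hb : a ≤ b) : ‖Λ a‖ ≤ ‖Λ b‖ := by
  have h1 := h.mul_le (C := 0) ha (y := a - b) (by simpa using hb)
  have h2 := (Complex.re_le_norm _).trans (norm_inner_le_norm (𝕜 := ℂ) (Λ a) (Λ b))
  have h3 := h.nsq a
  rw [h.inner] at h2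
  rw [ha.isSelfAdjoint.star_eq] at h2 h3
  rw [mul_sub, map_sub, Complex.sub_re] at h1
  rcases (norm_nonneg (Λ a)).eq_or_lt with c | c
  · rw [← c]; exact norm_nonneg _
  · exact le_of_mul_le_mul_left (by nlinarith) c

theorem Tr.clip_le (h : Tr τ Λ) {q b : A} (hq : star q = q) (hb : star b = b) (hb1 : ‖b‖ ≤ 1) :
    ‖Λ (cfc clip q - b)‖ ≤ ‖Λ (q - b)‖ := by
  have hq' : IsSelfAdjoint q := hq
  set p := cfc (fun s : ℝ => max (s - 1) 0) q
  set n := cfc (fun s : ℝ => max (-1 - s) 0) q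
  have p0 : 0 ≤ p := cfc_nonneg fun _ _ => le_max_right _ _
  have n0 : 0 ≤ n := cfc_nonneg fun _ _ => le_max_right _ _
  have e1 : q - b = (cfc clip q - b) + (p - n) := by
    have : q = cfc clip q + (p - n) := by
      rw [← cfc_sub _ _ q, ← cfc_add q _ _]
      refine (cfc_id' ℝ q).symm.trans (cfc_congr fun s _ => ?_)
      rcases clip_cases s with ⟨a, h⟩ | ⟨a, b, h⟩ | ⟨a, h⟩ <;> simp only [h]
      · rw [max_eq_right (by linarith), max_eq_left (by linarith)]; ring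
      · rw [max_eq_right (by linarith), max_eq_right (by linarith)]; ring
      · rw [max_eq_left (by linarith), max_eq_right (by linarith)]; ring
    conv_lhs => rw [this]
    abel
  have e2 : cfc clip q * (p - n) = p + n := by
    rw [← cfc_sub _ _ q, ← cfc_add q _ _, ← cfc_mul _ _ q]
    refine cfc_congr fun s _ => ?_
    rcases clip_cases s with ⟨a, h⟩ | ⟨a, b, h⟩ | ⟨a, h⟩ <;> simp only [h]
    · rw [max_eq_right (by linarith), max_eq_left (by linarith)]; ring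
    · rw [max_eq_right (by linarith), max_eq_right (by linarith)]; ring
    · rw [max_eq_left (by linarith), max_eq_right (by linarith)]; ring
  have i1 := h.mul_le p0 (le_smul_of_norm_le hb hb1)
  have i2 := h.mul_le n0 (le_smul_of_norm_le (a := -b) (by rw [star_neg, hb]) (by simpa using hb1))
  refine (pow_le_pow_iff_left₀ (norm_nonneg _) (by positivity) two_ne_zero).1 ?_
  rw [e1, map_add, norm_add_sq (𝕜 := ℂ), h.inner, star_sub, hb,
    (cfc_predicate clip q : IsSelfAdjoint _).star_eq, sub_mul, e2, mul_sub]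
  simp only [map_sub, map_add, RCLike.re_to_complex, Complex.sub_re, Complex.add_re, h.tr b,
    mul_neg, map_neg, Complex.neg_re] at *
  nlinarith [sq_nonneg ‖Λ p - Λ n‖]

theorem Tr.target (h : Tr τ Λ) {g x : A} (hg : star g = g) (hx : Commute x g) {κ : ℝ}
    (hκ : 0 ≤ κ) : ∃ ξ : ℂ, ‖ξ‖ = 1 ∧ ∃ y, star y = y ∧ ‖y‖ ≤ 1 ∧ Commute y g ∧
      κ / 2 * ‖Λ x‖ ^ 2 - κ ^ 3 * ‖Λ (x * star x)‖ ^ 2 ≤ (⟪Λ (ξ • y), Λ x⟫_ℂ).re := by
  obtain ⟨ξ, hξ, h1⟩ : ∃ ξ : ℂ, ‖ξ‖ = 1 ∧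
      2 * ‖Λ x‖ ^ 2 ≤ ‖Λ (conj ξ • x + star (conj ξ • x))‖ ^ 2 := by
    have p := parallelogram_law_with_norm ℂ (Λ x) (Λ (star x))
    rw [h.norm_star] at p
    rcases le_total (2 * ‖Λ x‖ ^ 2) (‖Λ x + Λ (star x)‖ ^ 2) with c | c
    · exact ⟨1, by simp, by simpa using c⟩
    · refine ⟨Complex.I, by simp, ?_⟩
      have : conj Complex.I • x + star (conj Complex.I • x) = -Complex.I • (x - star x) := by
        simp [smul_sub]
      rw [this, map_smul, norm_smul, map_sub]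
      simp only [norm_neg, Complex.norm_I, one_mul]
      nlinarith
  have e0 : ‖Λ (x * star x)‖ = ‖Λ (conj ξ • x * star (conj ξ • x))‖ := by
    rw [star_smul, smul_mul_smul_comm, map_smul, norm_smul]
    simp [hξ]
  have hz : Commute (conj ξ • x) g := hx.smul_left _
  refine ⟨ξ, hξ, ?_⟩
  have e1 : ∀ y, ⟪Λ (ξ • y), Λ x⟫_ℂ = ⟪Λ y, Λ (conj ξ • x)⟫_ℂ := fun y => by
    rw [map_smul, map_smul, inner_smul_left, inner_smul_right]
  simp only [e1]
  rw [e0]
  generalize conj ξ • x = z at *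
  set c := (2 : ℝ)⁻¹ • (z + star z) with hc
  have cs : IsSelfAdjoint c := by simp [hc, IsSelfAdjoint, add_comm]
  have cg : Commute c g := (hz.add_left (by simpa [hg] using hz.star_star)).smul_left _
  have ys : star (cfc (fun s => clip (κ * s)) c) = cfc (fun s => clip (κ * s)) c :=
    (cfc_predicate _ c : IsSelfAdjoint _)
  refine ⟨cfc (fun s => clip (κ * s)) c, ys, norm_clip _ _, cg.cfc_real _, ?_⟩
  have i1 : κ • c ^ 2 - κ ^ 3 • c ^ 4 ≤ cfc (fun s => clip (κ * s)) c * c := by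
    have := cfc_mono (a := c) (f := fun s : ℝ => κ * s ^ 2 - κ ^ 3 * s ^ 4)
      (g := fun s => clip (κ * s) * s) fun s _ => clip_ge hκ s
    rwa [cfc_sub _ _ c, cfc_const_mul _ _ c, cfc_const_mul _ _ c, cfc_pow_id c, cfc_pow_id c,
      cfc_mul _ _ c, cfc_id' ℝ c] at this
  have i2 := h.mono i1
  have i3 : ‖Λ (c ^ 2)‖ ≤ ‖Λ (z * star z)‖ := by
    have a1 : c ^ 2 ≤ (2 : ℝ)⁻¹ • (z * star z + star z * z) := by
      have := smul_nonneg (show (0 : ℝ) ≤ 4⁻¹ by norm_num) (star_mul_self_nonneg (z - star z))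
      rw [← sub_nonneg]
      convert this using 1
      simp only [hc, sq, star_sub, star_star, smul_mul_smul_comm, mul_add, add_mul, mul_sub, sub_mul]
      module
    have a2 : ‖Λ (star z * z)‖ = ‖Λ (z * star z)‖ :=
      (sq_eq_sq₀ (norm_nonneg _) (norm_nonneg _)).1 (by
        rw [h.nsq, h.nsq, star_mul, star_mul, star_star, mul_assoc, h.tr]
        simp only [mul_assoc])
    refine (h.norm_mono (by simpa [sq, cs.star_eq] using star_mul_self_nonneg c) a1).trans ?_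
    rw [LinearMap.map_smul_of_tower, norm_smul, map_add]
    have := norm_add_le (Λ (z * star z)) (Λ (star z * z))
    norm_num
    linarith
  have i4 : ‖Λ c‖ ^ 2 = 4⁻¹ * ‖Λ (z + star z)‖ ^ 2 := by
    rw [hc, LinearMap.map_smul_of_tower, norm_smul, mul_pow]
    norm_num
  have i5 : (⟪Λ (cfc (fun s => clip (κ * s)) c), Λ c⟫_ℂ).re =
      (⟪Λ (cfc (fun s => clip (κ * s)) c), Λ z⟫_ℂ).re := by
    conv_lhs => enter [1, 3]; rw [hc, LinearMap.map_smul_of_tower, map_add, ← Complex.coe_smul]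
    rw [inner_smul_right, Complex.re_ofReal_mul, inner_add_right, Complex.add_re,
      h.re_inner_star ys]
    ring
  rw [← i5, h.inner, ys]
  refine le_trans ?_ i2
  have j1 : (τ (c ^ 2)).re = ‖Λ c‖ ^ 2 := by rw [h.nsq, cs.star_eq, sq]
  have j2 : (τ (c ^ 4)).re = ‖Λ (c ^ 2)‖ ^ 2 := by rw [h.nsq, (cs.pow 2).star_eq, ← pow_add]
  rw [map_sub, LinearMap.map_smul_of_tower, LinearMap.map_smul_of_tower, Complex.sub_re,
    Complex.smul_re, Complex.smul_re, j1, j2, i4, smul_eq_mul, smul_eq_mul]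
  have := mul_le_mul_of_nonneg_left (pow_le_pow_left₀ (norm_nonneg _) i3 2) (pow_nonneg hκ 3)
  nlinarith

theorem Tr.flat1 (h : Tr τ Λ) {e : A} (hcen : ∀ x, e * x = x * e) (hs : ∀ x, τ (x * e) = τ x)
    {r : A} (hr : ‖r‖ ≤ 2) {I : Type} [Fintype I] [DecidableEq I] [Nonempty I]
    {v : I → A} {g : A} (hv : Frame v g e) :
    ∃ (w : I → A) (H : I → I → ℂ), Frame w g e ∧ (∀ i, w i * star (w i) = v i * star (v i)) ∧
      Frame (fun x => ∑ i, H x i • w i) g e ∧ ∑ x, ∑ a,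
        ‖Λ (star (∑ i, H x i • w i) * r * w a * star (star (∑ i, H x i • w i) * r * w a))‖ ^ 2 ≤
          (48 * ‖Λ 1‖ ^ 2 + 1) / Fintype.card I := by
  obtain ⟨w, H, h1, h2, h3, h4⟩ := h.flat0 hcen hs (fun _ : Unit => r) hv
  refine ⟨w, H, h1, h2, h3, ?_⟩
  have ep := hv.proj
  have a : ∀ r : A, ‖r‖ ≤ 2 → ‖star r * e * r‖ ≤ 4 := fun r hr => by
    refine (norm_mul₃_le).trans ?_
    rw [_root_.norm_star]
    calc ‖r‖ * ‖e‖ * ‖r‖ ≤ 2 * 1 * 2 := by gcongr; exact ep.norm_le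
      _ = _ := by norm_num
  have a1 := a r hr
  have a2 := a (star r) (by simpa using hr)
  rw [star_star] at a2
  have a3 : (τ (r * e * star r)).re ≤ 4 * ‖Λ 1‖ ^ 2 := by
    have := h.mono (le_smul_of_norm_le (by simp [ep.isSelfAdjoint.star_eq, mul_assoc]) a2)
    rw [h.nsq]
    simpa using this
  have a4 := h.re_nonneg (star_right_conjugate_nonneg ep.nonneg r)
  rw [sum_comm]
  simp only [univ_unique, sum_singleton] at h4
  refine le_trans (le_of_eq ?_) (h4.trans ?_)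
  · simp only [← h2, star_mul, star_star, mul_assoc]
  · refine div_le_div_of_nonneg_right ?_ (Nat.cast_nonneg _)
    nlinarith [mul_le_mul a1 a3 a4 (by norm_num), mul_le_mul a2 a3 a4 (by norm_num)]

end Vale.Agent.P104
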