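import Vale.Agent.P085.Generic
import Vale.Agent.P085.Glue
import Vale.Agent.P085.Polar
import Vale.Agent.P104.Trace

/-! The tracial case and the main theorem. -/

namespace Vale.Agent.P085

open Vale.Agent.P104 Filter Topology Finset
open scoped InnerProductSpace ComplexOrder

theorem reindex {A I J : Type*} [Ring A] [StarRing A] [Fintype I] [DecidableEq I] [Fintype J]
    [DecidableEq J] {v : I → A} {g e : A} (h : Frame v g e) (φ : J ≃ I) :
    Frame (fun j => v (φ j)) g e :=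
  ⟨h.sa, h.idem, fun i j => by simp [h.orth], (φ.sum_comp fun i => v i * star (v i)).trans h.sum,
    fun _ => h.fix _⟩

theorem exists_tower {A : Type*} [Ring A] [StarRing A] {e : A} (he : star e = e) (he' : e * e = e)
    (hH : ∀ g, star g = g → g * g = g → e * g = g →
      ∃ w, w * star w * w = w ∧ w * w = 0 ∧ star w * w + w * star w = g) :
    ∃ Q : Set A, Q.Countable ∧ (∀ q ∈ Q, IsStarProjection q ∧ e * q = q) ∧
      (∀ p ∈ Q, ∀ q ∈ Q, Commute p q) ∧ ∀ m : ℕ, ∃ K ≥ m, ∃ (v : Fin K → A) (g : A),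
        Frame v g e ∧ ∀ i, v i * star (v i) ∈ Q := by
  let T := {x : Σ K : ℕ, (Fin K → A) × A // 0 < x.1 ∧ Frame x.2.1 x.2.2 e ∧ e * x.2.2 = x.2.2}
  have step : ∀ x : T, ∃ y : T, x.1.1 < y.1.1 ∧ ∀ j, ∃ i,
      x.1.2.1 i * star (x.1.2.1 i) * y.1.2.1 j = y.1.2.1 j := by
    rintro ⟨⟨K, v, g⟩, K0, hv, eg⟩
    obtain ⟨w, w1, w2, w3⟩ := hH g hv.sa hv.idem eg
    have h4 := hv.double w1 w2 w3
    have : g * (star w * w) = star w * w := by
      rw [← w3, add_mul, h4.idem, mul_assoc, ← mul_assoc (star w), ← star_mul, w2]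
      simp
    refine ⟨⟨⟨K + K, _, _⟩, by simpa using K0, reindex h4 finSumFinEquiv.symm,
      by rw [← this, ← mul_assoc, eg]⟩, by simpa using K0, fun j => ?_⟩
    have o : ∀ i x, v i * star (v i) * (v i * x) = v i * x := fun i x => by
      rw [← mul_assoc, mul_assoc (v i), hv.orth, if_pos rfl, hv.fix]
    dsimp only
    cases finSumFinEquiv.symm j with
    | inl i => exact ⟨i, o i _⟩
    | inr i => exact ⟨i, o i _⟩
  choose F F1 F2 using step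
  let x0 : T := ⟨⟨1, fun _ => e, e⟩, one_pos,
    ⟨he, he', by simp [he, he', Subsingleton.elim _ (0 : Fin 1)], by simp [he, he'], fun _ => he'⟩, he'⟩
  let p : ∀ n : ℕ, Fin (F^[n] x0).1.1 → A := fun n i => (F^[n] x0).1.2.1 i * star ((F^[n] x0).1.2.1 i)
  have P := fun n => (F^[n] x0).2.2.1.part
  have pp : ∀ n i, IsStarProjection (p n i) := fun n i => ⟨(P n).idem (some i), (P n).sa (some i)⟩
  have sub : ∀ m n, m ≤ n → ∀ j, ∃ i, p m i * p n j = p n j := fun m n hmn => by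
    induction n, hmn using Nat.le_induction with
    | base => exact fun j => ⟨j, (pp m j).1⟩
    | succ n _ ih =>
      simp only [p]
      rw [Function.iterate_succ_apply']
      intro j
      obtain ⟨k, hk⟩ := F2 _ j
      obtain ⟨i, hi⟩ := ih k
      refine ⟨i, ?_⟩
      rw [← hk, ← mul_assoc, ← mul_assoc]
      exact congrArg (· * _ * _) hi
  have cm : ∀ m n, m ≤ n → ∀ i j, Commute (p m i) (p n j) := fun m n hmn i j => by
    obtain ⟨k, hk⟩ := sub m n hmn j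
    by_cases c : i = k
    · exact (c ▸ hk).trans (proj_mul_symm (pp m i).2 (pp n j).2 (pp n j).2 (c ▸ hk)).symm
    · have : p m i * p n j = 0 := by
        rw [← hk, ← mul_assoc, show p m i * p m k = 0 from
          (P m).orth (some i) (some k) (by simpa using c), zero_mul]
      exact this.trans (proj_mul_symm (pp m i).2 (pp n j).2 (star_zero _) this).symm
  refine ⟨Set.range fun x : Σ n, Fin (F^[n] x0).1.1 => p x.1 x.2, Set.countable_range _, ?_, ?_,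
    fun m => ⟨_, ?_, _, _, (F^[m] x0).2.2.1, fun i => ⟨⟨m, i⟩, rfl⟩⟩⟩
  · rintro _ ⟨⟨n, i⟩, rfl⟩
    exact ⟨pp n i, by simp only [p, ← mul_assoc, (F^[n] x0).2.2.1.left]⟩
  · rintro _ ⟨⟨m, i⟩, rfl⟩ _ ⟨⟨n, j⟩, rfl⟩
    rcases le_total m n with c | c
    · exact cm m n c i j
    · exact (cm n m c j i).symm
  · induction m with
    | zero => exact Nat.zero_le _
    | succ m ih =>
      rw [Function.iterate_succ_apply']
      exact ih.trans_lt (F1 _)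

universe u

variable {K : Type u} [NormedAddCommGroup K] [InnerProductSpace ℂ K] [CompleteSpace K]
  {M : VonNeumannAlgebra K}

theorem exists_trace' {e : K →L[ℂ] K} (he : e ∈ M) (hep : IsStarProjection e) {Ω : K}
    (h : TwoTracial M e Ω) :
    ∃ τ : (K →L[ℂ] K) →ₗ[ℂ] ℂ, IsTrace (relComm M e) e τ ∧
      (∀ x ∈ relComm M e, ‖x Ω‖ ^ 2 ≤ 2 * (τ (star x * x)).re) ∧
      ∃ ω : K, ∀ x, τ x = ⟪ω, x Ω⟫_ℂ := by
  let S : StarSubalgebra ℂ (K →L[ℂ] K) := (relComm M e).toStarSubalgebra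
  have hS : IsClosed (S : Set (K →L[ℂ] K)) := vn_isClosed (relComm M e)
  let j₀ : S →ₗ[ℂ] K :=
    { toFun := fun x => x.1 Ω
      map_add' := fun _ _ => rfl
      map_smul' := fun _ _ => rfl }
  let U : Submodule ℂ K := j₀.range.topologicalClosure
  let j : S →ₗ[ℂ] U := j₀.codRestrict U fun x =>
    Submodule.le_topologicalClosure _ (LinearMap.mem_range_self _ x)
  have hj : ∀ x, (j x : K) = x.1 Ω := fun _ => rfl
  have hd : DenseRange j := by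
    rw [DenseRange, Subtype.dense_iff]
    intro z hz
    refine closure_mono ?_ hz
    rintro _ ⟨x, rfl⟩
    exact ⟨j x, ⟨x, rfl⟩, rfl⟩
  obtain ⟨ω, h1, h2⟩ := trace_of_cyclic j hd
    (fun x y => by
      show ⟪x.1 Ω, y.1 Ω⟫_ℂ = ⟪Ω, star x.1 (y.1 Ω)⟫_ℂ
      rw [inner_star_right])
    (fun x v => two_unitary he hep h v.1.2 (congrArg Subtype.val (Unitary.mem_iff.1 v.2).2) x.2)
  let τ : (K →L[ℂ] K) →ₗ[ℂ] ℂ :=
    { toFun := fun x => ⟪(ω : K), x Ω⟫_ℂ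
      map_add' := fun a b => by rw [add_apply, inner_add_right]
      map_smul' := fun c a => by rw [smul_apply, inner_smul_right]; rfl }
  have h3 : ∀ x ∈ relComm M e, ‖x Ω‖ ^ 2 ≤ 2 * (τ (star x * x)).re := fun x hx =>
    (h2 ⟨x, hx⟩).1
  refine ⟨τ, ⟨fun x hx y hy => h1 ⟨x, hx⟩ ⟨y, hy⟩, fun x hx => ?_, fun x hx => (h2 ⟨x, hx⟩).2,
    fun x _ => ?_⟩, h3, ω, fun _ => rfl⟩
  · have := h3 x hx
    nlinarith [sq_nonneg ‖x Ω‖]
  · show ⟪(ω : K), x (e Ω)⟫_ℂ = ⟪(ω : K), x Ω⟫_ℂ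
    rw [h.fix]

theorem strong_zero {e : K →L[ℂ] K} (hep : IsStarProjection e) {Ω : K} (h : TwoTracial M e Ω)
    {ι : Type*} {l : Filter ι} {x : ι → K →L[ℂ] K} {C : ℝ} (h1 : ∀ i, x i ∈ M)
    (h2 : ∀ i, ‖x i‖ ≤ C) (h3 : Tendsto (fun i => x i Ω) l (𝓝 0)) (z : K) :
    Tendsto (fun i => x i (e z)) l (𝓝 0) := by
  refine strong_of_closure (w := 0) h2 ?_
    (h.cyc _ (congrArg (fun T : K →L[ℂ] K => T z) hep.isIdempotentElem.eq))
  rintro _ ⟨y, hy, rfl⟩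
  have := (y.continuous.tendsto _).comp h3
  rw [map_zero] at this
  exact this.congr fun i => congrArg (fun T : K →L[ℂ] K => T Ω) (commute_of_mem (h1 i) hy).symm

instance (N : VonNeumannAlgebra K) : IsClosed (N.toStarSubalgebra : Set (K →L[ℂ] K)) :=
  vn_isClosed _

theorem inv_vn {N : VonNeumannAlgebra K} {e : K →L[ℂ] K} {τ : (K →L[ℂ] K) →ₗ[ℂ] ℂ} (eN : e ∈ N)
    (hτ : IsTrace N e τ) (hf : ∀ p ∈ N, IsStarProjection p → e * p = p → τ p = 0 → p = 0) :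
    Inv (⟨e, eN⟩ : N.toStarSubalgebra) := fun g c g1 g2 g3 g4 => by
  obtain ⟨u, u1, u2, u3, s, s1, s2⟩ := unitary_polar hτ hf g.2
    ⟨congrArg Subtype.val g1.1, congrArg Subtype.val g1.2⟩
    (congrArg Subtype.val g2) c.2 (congrArg Subtype.val g3) (congrArg Subtype.val g4)
  exact ⟨⟨u, u1⟩, ⟨Subtype.ext u2.1, Subtype.ext u2.2⟩, Subtype.ext u3, ⟨s, s1⟩, Subtype.ext s2⟩

theorem tower_vn {N : VonNeumannAlgebra K} {e : K →L[ℂ] K} (eN : e ∈ N) (hep : IsStarProjection e)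
    (mN : ∀ {x}, x ∈ N ↔ x ∈ M ∧ e * x = x * e) (hH : Halving M e) :
    ∃ Q : Set N.toStarSubalgebra, Q.Countable ∧ (∀ q ∈ Q, IsStarProjection q ∧ ⟨e, eN⟩ * q = q) ∧
      (∀ p ∈ Q, ∀ q ∈ Q, Commute p q) ∧ ∀ m : ℕ, ∃ k ≥ m, ∃ (v : Fin k → N.toStarSubalgebra)
        (g : N.toStarSubalgebra), Frame v g ⟨e, eN⟩ ∧ ∀ i, v i * star (v i) ∈ Q :=
  exists_tower (A := N.toStarSubalgebra) (e := ⟨e, eN⟩)
    (Subtype.ext hep.2) (Subtype.ext hep.1) fun g g1 g2 g3 => by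
      obtain ⟨w, w0, w1, w2, w3⟩ := hH g (mN.1 g.2).1
        ⟨congrArg Subtype.val g2, congrArg Subtype.val g1⟩ (congrArg Subtype.val g3)
      have g4 : e * g.1 = g.1 := congrArg Subtype.val g3
      have g5 : g.1 * e = g.1 := (mN.1 g.2).2 ▸ g4
      have w4 : g.1 * w = w := by rw [← w3, add_mul, w1, mul_assoc, w2, mul_zero, zero_add]
      have w5 : w * g.1 = w := by
        rw [← w3, mul_add, ← mul_assoc, w1, ← mul_assoc, w2, zero_mul, add_zero]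
      exact ⟨⟨w, mN.2 ⟨w0, by rw [← w4, ← mul_assoc, g4, w4, ← w5, mul_assoc, g5]⟩⟩,
        Subtype.ext w1, Subtype.ext w2, Subtype.ext w3⟩

theorem complete_vn {N : VonNeumannAlgebra K} {e : K →L[ℂ] K} (eN : e ∈ N)
    (hc : ∀ x ∈ N, e * x = x * e) {E : Type*} [NormedAddCommGroup E] [InnerProductSpace ℂ E]
    (Λ : N.toStarSubalgebra →ₗ[ℂ] E) {Ω : K} {C : ℝ} (C0 : 0 ≤ C)
    (n2 : ∀ x : N.toStarSubalgebra, ‖Λ x‖ ^ 2 ≤ C * (‖x‖ * ‖x.1 Ω‖))
    (n3 : ∀ (x : ℕ × ℕ → N.toStarSubalgebra), (∀ i, ‖x i‖ ≤ 2) →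
      Tendsto (fun i => ‖Λ (x i)‖) atTop (𝓝 0) →
      ∀ z, Tendsto (fun i => (x i).1 (e z)) atTop (𝓝 0))
    (u : ℕ → N.toStarSubalgebra) (hu : ∀ n, star (u n) = u n ∧ ‖u n‖ ≤ 1 ∧ ⟨e, eN⟩ * u n = u n)
    (hc' : CauchySeq fun n => Λ (u n)) : ∃ a, (star a = a ∧ ‖a‖ ≤ 1 ∧ ⟨e, eN⟩ * a = a) ∧
      Tendsto (fun n => Λ (u n)) atTop (𝓝 (Λ a)) := by
  have ue : ∀ n z, (u n).1 (e z) = (u n).1 z := fun n z => by
    rw [← mul_apply_eq_comp, ← hc _ (u n).2]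
    exact congrArg (fun T : N.toStarSubalgebra => T.1 z) (hu n).2.2
  obtain ⟨w, hw⟩ := exists_strong_limit atTop (fun n => (u n).1) 1
    (.of_forall fun n => (hu n).2.1) fun z => by
    refine cauchySeq_iff_tendsto_dist_atTop_0.2 ?_
    have := n3 (fun p : ℕ × ℕ => u p.1 - u p.2)
      (fun p => (norm_sub_le_of_le (hu _).2.1 (hu _).2.1).trans_eq (by norm_num))
      (by simpa only [map_sub, ← dist_eq_norm] using cauchySeq_iff_tendsto_dist_atTop_0.1 hc') z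
    simpa [dist_eq_norm, ue] using this.norm
  have wN : w ∈ N := mem_of_strong_limit (.of_forall fun n => (u n).2) hw
  have w1 : ‖w‖ ≤ 1 := w.opNorm_le_bound zero_le_one fun z =>
    le_of_tendsto' (hw z).norm fun n => (u n).1.le_of_opNorm_le (hu n).2.1 z
  refine ⟨⟨w, wN⟩, ⟨Subtype.ext (star_of_strong_limit hw fun z => (hw z).congr fun n =>
    congrArg (fun T : N.toStarSubalgebra => T.1 z) (hu n).1.symm), w1,
    Subtype.ext (eq_of_limit (.of_forall fun n => congrArg Subtype.val (hu n).2.2)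
      (fun z => (e.continuous.tendsto _).comp (hw z)) hw)⟩, ?_⟩
  have w2 : ‖(⟨w, wN⟩ : N.toStarSubalgebra)‖ ≤ 1 := w1
  rw [tendsto_iff_norm_sub_tendsto_zero]
  have t := ((tendsto_iff_norm_sub_tendsto_zero.1 (hw Ω)).const_mul 2).const_mul C
  refine squeeze_zero (fun _ => norm_nonneg _) (fun n => Real.le_sqrt_of_sq_le ?_)
    (t.sqrt.trans_eq (by simp))
  rw [← map_sub]
  exact (n2 _).trans (mul_le_mul_of_nonneg_left (mul_le_mul_of_nonneg_right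
    ((norm_sub_le_of_le (hu n).2.1 w2).trans_eq (by norm_num)) (norm_nonneg _)) C0)

theorem exists_tr {N : VonNeumannAlgebra K} {e : K →L[ℂ] K} {τ : (K →L[ℂ] K) →ₗ[ℂ] ℂ}
    (hτ : IsTrace N e τ) : ∃ (E : Type u) (_ : NormedAddCommGroup E) (_ : InnerProductSpace ℂ E)
      (t : N.toStarSubalgebra →ₗ[ℂ] ℂ) (Λ : N.toStarSubalgebra →ₗ[ℂ] E),
      Tr t Λ ∧ ∀ x, t x = τ x := by
  let _ := CStarAlgebra.spectralOrder N.toStarSubalgebra
  have := CStarAlgebra.spectralOrderedRing N.toStarSubalgebra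
  let t : N.toStarSubalgebra →ₗ[ℂ] ℂ := τ ∘ₗ N.toStarSubalgebra.subtype.toAlgHom.toLinearMap
  let φ : N.toStarSubalgebra →ₚ[ℂ] ℂ := .mk₀ t fun y hy => by
    obtain ⟨s, rfl⟩ := CStarAlgebra.nonneg_iff_eq_star_mul_self.1 hy
    exact ⟨hτ.pos_re _ s.2, (hτ.pos_im _ s.2).symm⟩
  exact ⟨φ.GNS, _, _, t, (UniformSpace.Completion.toComplL : φ.PreGNS →L[ℂ] φ.GNS).toLinearMap ∘ₗ
      φ.toPreGNS.toLinearMap, ⟨fun x y => hτ.tr _ x.2 _ y.2,
      fun x y => UniformSpace.Completion.inner_coe _ _⟩, fun _ => rfl⟩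

theorem gen_final {N : VonNeumannAlgebra K} {e : K →L[ℂ] K} (eN : e ∈ N) (hep : IsStarProjection e)
    (mN : ∀ {x}, x ∈ N ↔ x ∈ M ∧ e * x = x * e) {E : Type*} [NormedAddCommGroup E]
    [InnerProductSpace ℂ E] (Λ : N.toStarSubalgebra →ₗ[ℂ] E)
    (n3 : ∀ (x : ℕ → N.toStarSubalgebra), (∀ i, ‖x i‖ ≤ 2) →
      Tendsto (fun i => ‖Λ (x i)‖) atTop (𝓝 0) →
      ∀ z, Tendsto (fun i => (x i).1 (e z)) atTop (𝓝 0))
    {Q : Set N.toStarSubalgebra} (Q1 : Q.Countable)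
    (Q2 : ∀ q ∈ Q, IsStarProjection q ∧ ⟨e, eN⟩ * q = q) (Q3 : ∀ p ∈ Q, ∀ q ∈ Q, Commute p q)
    {V : ℕ → K →L[ℂ] K} (hV : ∀ n, V n ∈ M ∧ 0 ≤ V n ∧ V n ≤ e)
    (hN : ∀ P : VonNeumannAlgebra K, (∀ n, V n ∈ P) → ∀ x ∈ M, e * x * e = x → x ∈ P)
    {VN : ∀ n, V n ∈ N} {a : N.toStarSubalgebra} (a1 : star a = a) (a2 : ⟨e, eN⟩ * a = a)
    (a3 : ∀ n, ∀ ε > 0, ∃ q ∈ Cl (insert a Q), ‖q‖ ≤ 1 ∧ ‖Λ (⟨V n, VN n⟩ - q)‖ < ε) :
    Gen M e := by
  have V1 := fun n => hep.mul_right_and_mul_left_of_nonneg_of_le (hV n).2.1 (hV n).2.2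
  have := Q1.to_subtype
  refine Gen.of_countable (fun q : Q => q.1.1) (fun q => ⟨(mN.1 q.1.2).1,
    ⟨congrArg Subtype.val (Q2 _ q.2).1.1, congrArg Subtype.val (Q2 _ q.2).1.2⟩,
    congrArg Subtype.val (Q2 _ q.2).2⟩) (fun p q => congrArg Subtype.val (Q3 _ p.2 _ q.2))
    (mN.1 a.2).1 (congrArg Subtype.val a1) (congrArg Subtype.val a2) fun P eP QP aP =>
    hN P fun n => ?_
  choose q q1 q2 q3 using fun k : ℕ => a3 n _ (Nat.one_div_pos_of_nat (n := k))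
  have le : Cl (insert a Q) ≤ P.toStarSubalgebra.comap N.toStarSubalgebra.subtype :=
    StarSubalgebra.topologicalClosure_minimal (StarAlgebra.adjoin_le (by
      rintro x (rfl | hx)
      · exact aP
      · exact QP ⟨x, hx⟩)) ((vn_isClosed P).preimage continuous_subtype_val)
  refine mem_of_strong_limit (l := atTop) (v := fun k => (q k).1 * e)
    (.of_forall fun k => mul_mem (le (q1 k)) eP) fun z => ?_
  have V2 : ‖(⟨V n, VN n⟩ : N.toStarSubalgebra)‖ ≤ 1 :=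
    norm_le_one_of_le_proj hep (hV n).2.1 (hV n).2.2
  have b : ∀ k, ‖(⟨V n, VN n⟩ : N.toStarSubalgebra) - q k‖ ≤ 2 := fun k =>
    (norm_sub_le_of_le V2 (q2 k)).trans_eq one_add_one_eq_two
  have c : Tendsto (fun k => ‖Λ (⟨V n, VN n⟩ - q k)‖) atTop (𝓝 0) :=
    squeeze_zero (fun _ => norm_nonneg _) (fun k => (q3 k).le)
      tendsto_one_div_add_atTop_nhds_zero_nat
  have d := (tendsto_const_nhds (x := V n z)).sub (n3 _ b c z)
  have e1 : V n (e z) = V n z := congrArg (fun T : K →L[ℂ] K => T z) (V1 n).1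
  rw [sub_zero] at d
  refine d.congr fun k => ?_
  change V n z - (V n (e z) - (q k).1 (e z)) = (q k).1 (e z)
  rw [e1, sub_sub_cancel]

theorem gen_tracial [TopologicalSpace.SeparableSpace K] {e : K →L[ℂ] K} (he : e ∈ M)
    (hep : IsStarProjection e) (hH : Halving M e) {Ω : K} (hΩ : TwoTracial M e Ω) : Gen M e := by
  obtain ⟨τ, hτ, τ1, ω, τ2⟩ := exists_trace' he hep hΩ
  have es := hep.isSelfAdjoint.star_eq
  have mN : ∀ {x}, x ∈ relComm M e ↔ x ∈ M ∧ e * x = x * e := mem_relComm es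
  generalize relComm M e = N at *
  have mN' : ∀ x ∈ M, star x = x → e * x = x → x ∈ N := fun x h1 h2 h3 =>
    mN.2 ⟨h1, h3.trans (proj_mul_symm es h2 h2 h3).symm⟩
  have eN : e ∈ N := mN.2 ⟨he, rfl⟩
  obtain ⟨E, _, _, t, Λ, h, ht⟩ := exists_tr hτ
  have n1 : ∀ x : N.toStarSubalgebra, ‖x.1 Ω‖ ≤ 2 * ‖Λ x‖ := fun x => by
    have := τ1 _ x.2
    have e1 : (τ (star x.1 * x.1)).re = ‖Λ x‖ ^ 2 := by rw [h.nsq, ht]; rfl
    refine (pow_le_pow_iff_left₀ (norm_nonneg _) (by positivity) two_ne_zero).1 ?_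
    nlinarith [sq_nonneg ‖Λ x‖]
  have n2 : ∀ x : N.toStarSubalgebra, ‖Λ x‖ ^ 2 ≤ ‖ω‖ * (‖x‖ * ‖x.1 Ω‖) := fun x => by
    rw [h.nsq, ht]
    refine (Complex.re_le_norm (τ (star x.1 * x.1))).trans ?_
    rw [τ2]
    refine (norm_inner_le_norm _ _).trans (mul_le_mul_of_nonneg_left ?_ (norm_nonneg _))
    exact ((star x.1).le_opNorm _).trans_eq (by rw [norm_star]; rfl)
  have n3 : ∀ {ι : Type} {l : Filter ι} (x : ι → N.toStarSubalgebra), (∀ i, ‖x i‖ ≤ 2) →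
      Tendsto (fun i => ‖Λ (x i)‖) l (𝓝 0) → ∀ z, Tendsto (fun i => (x i).1 (e z)) l (𝓝 0) :=
    fun x h1 h2 => strong_zero hep hΩ (fun i => (mN.1 (x i).2).1) h1
      (squeeze_zero_norm (fun i => n1 _) (by simpa using h2.const_mul 2))
  obtain ⟨Q, Q1, Q2, Q3, Q4⟩ := tower_vn eN hep mN hH
  obtain ⟨V, hV, hN⟩ := exists_dense he hep
  have V1 := fun n => hep.mul_right_and_mul_left_of_nonneg_of_le (hV n).2.1 (hV n).2.2
  have Vs := fun n => (hV n).2.1.isSelfAdjoint.star_eq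
  have hI := inv_vn eN hτ fun p p1 p2 p3 p4 => by
    have := τ1 p p1
    rw [p2.isSelfAdjoint.star_eq, p2.1.eq, p4, Complex.zero_re, mul_zero] at this
    have z : p Ω = 0 := by simpa using this
    rw [← p3, (mN.1 p1).2]
    exact ContinuousLinearMap.ext fun y => tendsto_const_nhds_iff.1
      (strong_zero hep hΩ (l := (atTop : Filter ℕ)) (fun _ => (mN.1 p1).1) (fun _ => le_rfl)
        (by simp [z]) y)
  obtain ⟨a, a1, a2, a3⟩ := by
    let _ := CStarAlgebra.spectralOrder N.toStarSubalgebra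
    have := CStarAlgebra.spectralOrderedRing N.toStarSubalgebra
    exact generic h (e := ⟨e, eN⟩) (fun x => Subtype.ext (mN.1 x.2).2)
      (fun x => by rw [ht, ht]; exact hτ.supp _ x.2) hI Q4
      (complete_vn eN (fun x hx => (mN.1 hx).2) Λ (norm_nonneg _) n2 n3)
      (fun n => ⟨V n, mN' _ (hV n).1 (Vs n) (V1 n).2⟩) fun n =>
        ⟨Subtype.ext (Vs n), norm_le_one_of_le_proj hep (hV n).2.1 (hV n).2.2⟩
  exact gen_final eN hep mN Λ n3 Q1 Q2 Q3 hV hN a1 a2 a3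

theorem single_generator [TopologicalSpace.SeparableSpace K] (M : VonNeumannAlgebra K) :
    ∃ x ∈ M, ∀ N : VonNeumannAlgebra K, x ∈ N → ∀ y ∈ M, y ∈ N := by
  refine single_of_gen (gen_one fun p p1 p2 p3 => ?_)
  obtain ⟨e, e1, e2, e3, e4, h⟩ := trichotomy p p1 p2 p3
  have z : ∀ y : K →L[ℂ] K, (∀ x ∈ M, y * x * p = 0) → ∀ x ∈ M, y * x * e = 0 := fun y hy x hx => by
    rw [← e4, ← mul_assoc, hy x hx, zero_mul]
  have z' : ∀ y : K →L[ℂ] K, (∀ x ∈ M, y * x * p = 0) → y * e = 0 := fun y hy => by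
    simpa using z y hy 1 (one_mem _)
  rcases h with h | h | ⟨h, Ω, h'⟩
  · exact ⟨e, e1, e2, e3, gen_abelian e1 e2 h, z'⟩
  · obtain ⟨f, f1, f2, f3, f4, f5⟩ := gen_copies e2 e3 h
    exact ⟨f, f1, f2, f3, f4, fun y hy => f5 y (z y hy)⟩
  · exact ⟨e, e1, e2, e3, gen_tracial e1 e2 h h', z'⟩

end Vale.Agent.P085
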